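import Vale.Agent.P267.H928.Int.FLStokes

/-!
# The integral of `dA ∧ F`
-/

set_option linter.unusedSectionVars false

open Module Topology Set Function MeasureTheory Measure Filter
open scoped ContDiff Manifold ENNReal ComplexConjugate

noncomputable section

namespace Vale.Agent.P267.FL

open Vale.Agent.P267.H928

/-! ### the product rule on `ℂ²` -/

theorem flat_leibniz {a b : Fin 2 → C2 → ℂ} {p q : C2 → ℂ} {m : Fin 2 → Fin 2 → C2 → ℂ} {z : C2}
    (ha : ∀ i, DifferentiableAt ℝ (a i) z) (hb : ∀ i, DifferentiableAt ℝ (b i) z)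
    (hp : DifferentiableAt ℝ p z) (hq : DifferentiableAt ℝ q z)
    (hm : ∀ i j, DifferentiableAt ℝ (m i j) z) :
    (dzb 0 (fun w => a 0 w * m 1 1 w - a 1 w * m 0 1 w + b 1 w * p w) z -
        dzb 1 (fun w => a 0 w * m 1 0 w - a 1 w * m 0 0 w + b 0 w * p w) z) +
      (dz 0 (fun w => a 1 w * q w - b 0 w * m 1 1 w + b 1 w * m 1 0 w) z -
        dz 1 (fun w => a 0 w * q w - b 0 w * m 0 1 w + b 1 w * m 0 0 w) z) =
    ((dz 0 (a 1) z - dz 1 (a 0) z) * q z + (dzb 0 (b 1) z - dzb 1 (b 0) z) * p z -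
      ((dz 0 (b 0) z - dzb 0 (a 0) z) * m 1 1 z + (dz 1 (b 1) z - dzb 1 (a 1) z) * m 0 0 z -
        (dz 0 (b 1) z - dzb 1 (a 0) z) * m 1 0 z - (dz 1 (b 0) z - dzb 0 (a 1) z) * m 0 1 z)) -
    ((a 0 z * (dz 1 q z - (dzb 0 (m 1 1) z - dzb 1 (m 1 0) z)) -
        a 1 z * (dz 0 q z - (dzb 0 (m 0 1) z - dzb 1 (m 0 0) z))) +
      (b 0 z * (dzb 1 p z + (dz 0 (m 1 1) z - dz 1 (m 0 1) z)) -
        b 1 z * (dzb 0 p z + (dz 0 (m 1 0) z - dz 1 (m 0 0) z)))) := by
  have am : ∀ i j k, DifferentiableAt ℝ (fun w => a i w * m j k w) z := fun i j k =>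
    (ha i).mul (hm j k)
  have bm : ∀ i j k, DifferentiableAt ℝ (fun w => b i w * m j k w) z := fun i j k =>
    (hb i).mul (hm j k)
  have bp : ∀ i, DifferentiableAt ℝ (fun w => b i w * p w) z := fun i => (hb i).mul hp
  have aq : ∀ i, DifferentiableAt ℝ (fun w => a i w * q w) z := fun i => (ha i).mul hq
  have s1 : ∀ i j k i' j' k', DifferentiableAt ℝ
      (fun w => a i w * m j k w - a i' w * m j' k' w) z := fun i j k i' j' k' =>
    (am i j k).sub (am i' j' k')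
  have s2 : ∀ i i' j k, DifferentiableAt ℝ (fun w => a i w * q w - b i' w * m j k w) z :=
    fun i i' j k => (aq i).sub (bm i' j k)
  rw [dzb_add (s1 0 1 1 1 0 1) (bp 1), dzb_sub (am 0 1 1) (am 1 0 1),
    dzb_mul (ha 0) (hm 1 1), dzb_mul (ha 1) (hm 0 1), dzb_mul (hb 1) hp,
    dzb_add (s1 0 1 0 1 0 0) (bp 0), dzb_sub (am 0 1 0) (am 1 0 0),
    dzb_mul (ha 0) (hm 1 0), dzb_mul (ha 1) (hm 0 0), dzb_mul (hb 0) hp,
    dz_add (s2 1 0 1 1) (bm 1 1 0), dz_sub (aq 1) (bm 0 1 1),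
    dz_mul (ha 1) hq, dz_mul (hb 0) (hm 1 1), dz_mul (hb 1) (hm 1 0),
    dz_add (s2 0 0 0 1) (bm 1 0 0), dz_sub (aq 0) (bm 0 0 1),
    dz_mul (ha 0) hq, dz_mul (hb 0) (hm 0 1), dz_mul (hb 1) (hm 0 0)]
  ring

/-! ### the `(2,1)` and `(1,2)` parts of `A ∧ F` -/

variable {X : Type*} [TopologicalSpace X] [ChartedSpace C2 X]

/-- the `(2,1)`-part of `A ∧ F` -/
def w21 (A : OneF X) (F : TwoF X) (x : X) (j : Fin 2) : ℂ :=
  A.f10 x 0 * F.f11 x 1 j - A.f10 x 1 * F.f11 x 0 j + A.f01 x j * F.f20 x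

/-- the `(1,2)`-part of `A ∧ F` -/
def w12 (A : OneF X) (F : TwoF X) (x : X) (i : Fin 2) : ℂ :=
  A.f10 x i * F.f02 x - A.f01 x 0 * F.f11 x i 1 + A.f01 x 1 * F.f11 x i 0

/-- the conjugate of the `(1,2)`-part of `A ∧ F` -/
def w12c (A : OneF X) (F : TwoF X) (x : X) (i : Fin 2) : ℂ := conj (w12 A F x i)

/-- the `(2,2)`-form `A ∧ dF` -/
def wedge3 (A : OneF X) (F : TwoF X) (x : X) : ℂ :=
  (A.f10 x 0 * F.d12 x 1 - A.f10 x 1 * F.d12 x 0) + (A.f01 x 0 * F.d21 x 1 - A.f01 x 1 * F.d21 x 0)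

theorem loc1_w21 (A : OneF X) (F : TwoF X) (e : Ch X) (z : C2) (j : Fin 2) :
    loc1 1 e (w21 A F) z j = loc10 e A.f10 z 0 * loc11 e F.f11 z 1 j -
      loc10 e A.f10 z 1 * loc11 e F.f11 z 0 j + loc1 0 e A.f01 z j * loc0 1 e F.f20 z := by
  simp only [loc1, loc10, loc11, loc0, w21, Matrix.of_apply, Fin.sum_univ_two, zpow_one, zpow_zero,
    Matrix.det_fin_two, smul_eq_mul]
  ring

theorem loc1_w12c (A : OneF X) (F : TwoF X) (e : Ch X) (z : C2) (i : Fin 2) :
    loc1 1 e (w12c A F) z i = conj (loc10 e A.f10 z i * loc2 0 e F.f02 z -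
      loc1 0 e A.f01 z 0 * loc11 e F.f11 z i 1 + loc1 0 e A.f01 z 1 * loc11 e F.f11 z i 0) := by
  simp only [loc1, loc10, loc11, loc2, w12c, w12, Matrix.of_apply, Fin.sum_univ_two, zpow_one,
    zpow_zero, Matrix.det_fin_two, smul_eq_mul, map_add, map_sub, map_mul, Complex.conj_conj,
    map_one]
  ring

theorem loc10_chartAt (c : X → Fin 2 → ℂ) (x : X) (hj : jac (chartAt C2 x) x = 1) (i : Fin 2) :
    loc10 (chartAt C2 x) c (chartAt C2 x x) i = c x i := by
  have hx : (chartAt C2 x).symm (chartAt C2 x x) = x :=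
    (chartAt C2 x).left_inv (mem_chart_source C2 x)
  simp only [loc10, hx, hj]
  fin_cases i <;> simp [Matrix.one_apply]

theorem loc11_chartAt (g : X → Matrix (Fin 2) (Fin 2) ℂ) (x : X) (hj : jac (chartAt C2 x) x = 1)
    (i j : Fin 2) : loc11 (chartAt C2 x) g (chartAt C2 x x) i j = g x i j := by
  have hx : (chartAt C2 x).symm (chartAt C2 x x) = x :=
    (chartAt C2 x).left_inv (mem_chart_source C2 x)
  simp only [loc11, hx, hj, Matrix.of_apply]
  fin_cases i <;> fin_cases j <;> simp [Matrix.one_apply]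

variable [IsManifold 𝓘(ℂ, C2) ω X]

/-- class `C¹` of a one-form -/
structure OneF.C1 (A : OneF X) : Prop where
  s10 : Reg10 1 A.f10
  s01 : Reg1 1 0 A.f01

/-- class `C¹` of a two-form -/
structure TwoF.C1 (F : TwoF X) : Prop where
  s20 : Reg0 1 1 F.f20
  s11 : Reg11 1 F.f11
  s02 : Reg2 1 0 F.f02

theorem OneF.Smooth.c1 {A : OneF X} (h : A.Smooth) : A.C1 :=
  ⟨fun e he => (h.s10 e he).of_le (by simp), fun e he => (h.s01 e he).of_le (by simp)⟩

theorem TwoF.Smooth.c1 {F : TwoF X} (h : F.Smooth) : F.C1 :=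
  ⟨fun e he => (h.s20 e he).of_le (by simp), fun e he i j => (h.s11 e he i j).of_le (by simp),
    fun e he => (h.s02 e he).of_le (by simp)⟩

theorem reg1_w21 {A : OneF X} {F : TwoF X} (hA : A.C1) (hF : F.C1) : Reg1 1 1 (w21 A F) := by
  intro e he
  rw [contDiffOn_pi]
  intro j
  have h10 := contDiffOn_pi.1 (hA.s10 e he)
  have h01 := contDiffOn_pi.1 (hA.s01 e he)
  refine ContDiffOn.congr (f := fun z => loc10 e A.f10 z 0 * loc11 e F.f11 z 1 j -
      loc10 e A.f10 z 1 * loc11 e F.f11 z 0 j + loc1 0 e A.f01 z j * loc0 1 e F.f20 z) ?_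
    fun z _ => loc1_w21 A F e z j
  exact (((h10 0).mul (hF.s11 e he 1 j)).sub ((h10 1).mul (hF.s11 e he 0 j))).add
    ((h01 j).mul (hF.s20 e he))

theorem reg1_w12c {A : OneF X} {F : TwoF X} (hA : A.C1) (hF : F.C1) : Reg1 1 1 (w12c A F) := by
  intro e he
  rw [contDiffOn_pi]
  intro i
  have h10 := contDiffOn_pi.1 (hA.s10 e he)
  have h01 := contDiffOn_pi.1 (hA.s01 e he)
  refine ContDiffOn.congr (f := fun z => conj (loc10 e A.f10 z i * loc2 0 e F.f02 z -
      loc1 0 e A.f01 z 0 * loc11 e F.f11 z i 1 + loc1 0 e A.f01 z 1 * loc11 e F.f11 z i 0)) ?_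
    fun z _ => loc1_w12c A F e z i
  exact Complex.conjCLE.contDiff.comp_contDiffOn ((((h10 i).mul (hF.s02 e he)).sub
    ((h01 0).mul (hF.s11 e he i 1))).add ((h01 1).mul (hF.s11 e he i 0)))

/-- `d(A ∧ F) = dA ∧ F - A ∧ dF`, the `(2,2)`-part. -/
theorem d_wedge {A : OneF X} {F : TwoF X} (hA : A.C1) (hF : F.C1) (x : X) :
    dbar1 1 (w21 A F) x + conj (dbar1 1 (w12c A F) x) = A.d.wedge F x - wedge3 A F x := by
  set e := chartAt C2 x with he'
  have he : e ∈ atlas C2 X := chart_mem_atlas C2 x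
  have hz : e x ∈ e.target := mem_chart_target C2 x
  have hn := e.open_target.mem_nhds hz
  have hj : jac e x = 1 := jac_chartAt x
  have h10 : ∀ i, DifferentiableAt ℝ (fun w => loc10 e A.f10 w i) (e x) := fun i =>
    ((contDiffOn_pi.1 (hA.s10 e he) i).contDiffAt hn).differentiableAt one_ne_zero
  have h01 : ∀ i, DifferentiableAt ℝ (fun w => loc1 0 e A.f01 w i) (e x) := fun i =>
    ((contDiffOn_pi.1 (hA.s01 e he) i).contDiffAt hn).differentiableAt one_ne_zero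
  have h20 : DifferentiableAt ℝ (loc0 1 e F.f20) (e x) :=
    ((hF.s20 e he).contDiffAt hn).differentiableAt one_ne_zero
  have h02 : DifferentiableAt ℝ (loc2 0 e F.f02) (e x) :=
    ((hF.s02 e he).contDiffAt hn).differentiableAt one_ne_zero
  have h11 : ∀ i j, DifferentiableAt ℝ (fun w => loc11 e F.f11 w i j) (e x) := fun i j =>
    ((hF.s11 e he i j).contDiffAt hn).differentiableAt one_ne_zero
  have key := flat_leibniz h10 h01 h20 h02 h11
  have e1 : dbar1 1 (w21 A F) x = dzb 0 (fun w => loc10 e A.f10 w 0 * loc11 e F.f11 w 1 1 -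
      loc10 e A.f10 w 1 * loc11 e F.f11 w 0 1 + loc1 0 e A.f01 w 1 * loc0 1 e F.f20 w) (e x) -
      dzb 1 (fun w => loc10 e A.f10 w 0 * loc11 e F.f11 w 1 0 -
      loc10 e A.f10 w 1 * loc11 e F.f11 w 0 0 + loc1 0 e A.f01 w 0 * loc0 1 e F.f20 w) (e x) := by
    simp only [dbar1, ← he', loc1_w21]
  have hd : ∀ i, DifferentiableAt ℝ (fun w => loc10 e A.f10 w i * loc2 0 e F.f02 w -
      loc1 0 e A.f01 w 0 * loc11 e F.f11 w i 1 + loc1 0 e A.f01 w 1 * loc11 e F.f11 w i 0) (e x) :=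
    fun i => (((h10 i).mul h02).sub ((h01 0).mul (h11 i 1))).add ((h01 1).mul (h11 i 0))
  have e2 : conj (dbar1 1 (w12c A F) x) = dz 0 (fun w => loc10 e A.f10 w 1 * loc2 0 e F.f02 w -
      loc1 0 e A.f01 w 0 * loc11 e F.f11 w 1 1 + loc1 0 e A.f01 w 1 * loc11 e F.f11 w 1 0) (e x) -
      dz 1 (fun w => loc10 e A.f10 w 0 * loc2 0 e F.f02 w -
      loc1 0 e A.f01 w 0 * loc11 e F.f11 w 0 1 + loc1 0 e A.f01 w 1 * loc11 e F.f11 w 0 0)
      (e x) := by
    simp only [dbar1, ← he', loc1_w12c, map_sub]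
    rw [dzb_conj (hd 1), dzb_conj (hd 0), Complex.conj_conj, Complex.conj_conj]
  rw [e1, e2, key]
  have v10 : ∀ i, loc10 e A.f10 (e x) i = A.f10 x i := loc10_chartAt A.f10 x hj
  have v01 : ∀ i, loc1 0 e A.f01 (e x) i = A.f01 x i := fun i => congrFun (loc1_chartAt 0 A.f01 x) i
  have v20 : loc0 1 e F.f20 (e x) = F.f20 x := loc0_chartAt 1 F.f20 x
  have v02 : loc2 0 e F.f02 (e x) = F.f02 x := loc2_chartAt 0 F.f02 x
  have v11 : ∀ i j, loc11 e F.f11 (e x) i j = F.f11 x i j := loc11_chartAt F.f11 x hj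
  simp only [v10, v01, v20, v02, v11, TwoF.wedge, wedge3, OneF.d, TwoF.d21, TwoF.d12, del10, del1,
    dbar10, dbar1, dbar0, ← he', Pi.add_apply, Matrix.add_apply, Matrix.of_apply]
  ring

theorem wedge_eq_zero {A : OneF X} {F : TwoF X} {x : X} (h : A.f10 x = 0 ∧ A.f01 x = 0 ∨
    F.f20 x = 0 ∧ F.f11 x = 0 ∧ F.f02 x = 0) : w21 A F x = 0 ∧ w12c A F x = 0 := by
  rcases h with ⟨h1, h2⟩ | ⟨h1, h2, h3⟩
  · constructor <;> funext j <;> simp [w21, w12c, w12, h1, h2]
  · constructor <;> funext j <;> simp [w21, w12c, w12, h1, h2, h3]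

/-- **Stokes**: the integral of `dA ∧ F` is the integral of `A ∧ dF`. -/
theorem integral_dA_wedge [T2Space X] [SigmaCompactSpace X] {A : OneF X} {F : TwoF X} (hA : A.C1)
    (hF : F.C1) {K : Set X} (hK : IsCompact K) (h0 : ∀ x ∉ K, A.f10 x = 0 ∧ A.f01 x = 0 ∨
      F.f20 x = 0 ∧ F.f11 x = 0 ∧ F.f02 x = 0) :
    IntegrableX (fun x => A.d.wedge F x - wedge3 A F x) ∧
      intV (fun x => A.d.wedge F x - wedge3 A F x) = 0 := by
  have c1 : HasCompactSupport (w21 A F) := HasCompactSupport.intro hK fun x hx =>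
    (wedge_eq_zero (h0 x hx)).1
  have c2 : HasCompactSupport (w12c A F) := HasCompactSupport.intro hK fun x hx =>
    (wedge_eq_zero (h0 x hx)).2
  have i1 : IntegrableX (dbar1 1 (w21 A F)) := by
    refine integrableX_of_reg ((reg1_w21 hA hF).dbar (by simp)) (HasCompactSupport.intro c1 ?_)
    exact fun x hx => dbar1_eq_zero_of_notMem (isClosed_tsupport _)
      (fun y hy => image_eq_zero_of_notMem_tsupport hy) hx
  have hreg2 := reg1_w12c hA hF
  have i2 : IntegrableX (dbar1 1 (w12c A F)) := by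
    refine integrableX_of_reg (hreg2.dbar (by simp)) (HasCompactSupport.intro c2 ?_)
    exact fun x hx => dbar1_eq_zero_of_notMem (isClosed_tsupport _)
      (fun y hy => image_eq_zero_of_notMem_tsupport hy) hx
  have i3 : IntegrableX (fun x => conj (dbar1 1 (w12c A F) x)) := by
    letI : MeasurableSpace X := borel X
    haveI : BorelSpace X := ⟨rfl⟩
    have h1 : quoX (fun x => conj (dbar1 1 (w12c A F) x)) =
        fun x => conj (quoX (dbar1 1 (w12c A F)) x) := by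
      funext x
      simp only [quoX_apply, Complex.real_smul, map_mul, Complex.conj_ofReal]
    change Integrable (quoX fun x => conj (dbar1 1 (w12c A F) x)) (volX X)
    rw [h1]
    exact (Complex.conjCLE : ℂ →L[ℝ] ℂ).integrable_comp i2
  have hsum : (fun x => A.d.wedge F x - wedge3 A F x) =
      dbar1 1 (w21 A F) + fun x => conj (dbar1 1 (w12c A F) x) := by
    funext x
    exact (d_wedge hA hF x).symm
  rw [hsum]
  refine ⟨i1.add i3, ?_⟩
  rw [intV_add i1 i3, intV_conj, intV_dbar1 (reg1_w21 hA hF) c1, intV_dbar1 hreg2 c2]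
  simp

/-- For closed `F` the integral of `dA ∧ F` vanishes. -/
theorem intX_dA_wedge [T2Space X] [SigmaCompactSpace X] {A : OneF X} {F : TwoF X} (hA : A.C1)
    (hF : F.C1) (hcl : F.Closed) {K : Set X} (hK : IsCompact K)
    (h0 : ∀ x ∉ K, A.f10 x = 0 ∧ A.f01 x = 0 ∨ F.f20 x = 0 ∧ F.f11 x = 0 ∧ F.f02 x = 0) :
    intX (A.d.wedge F) = 0 := by
  obtain ⟨h1, h2⟩ := integral_dA_wedge hA hF hK h0
  have h3 : (fun x => A.d.wedge F x - wedge3 A F x) = A.d.wedge F := by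
    funext x
    simp only [wedge3, hcl.1 x, hcl.2 x]
    ring
  rw [h3] at h1 h2
  have hc : HasCompactSupport (A.d.wedge F) := by
    refine HasCompactSupport.intro hK fun x hx => ?_
    have hev : ∀ᶠ y in 𝓝 x, w21 A F y = 0 ∧ w12c A F y = 0 := by
      filter_upwards [hK.isClosed.isOpen_compl.mem_nhds hx] with y hy
      exact wedge_eq_zero (h0 y hy)
    have e1 : dbar1 1 (w21 A F) x = 0 := by
      refine dbar1_eq_zero_of_notMem (K := K) hK.isClosed (fun y hy => ?_) hx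
      exact (wedge_eq_zero (h0 y hy)).1
    have e2 : dbar1 1 (w12c A F) x = 0 := by
      refine dbar1_eq_zero_of_notMem (K := K) hK.isClosed (fun y hy => ?_) hx
      exact (wedge_eq_zero (h0 y hy)).2
    have := d_wedge hA hF x
    rw [e1, e2, map_zero, add_zero] at this
    have h4 : wedge3 A F x = 0 := by simp [wedge3, hcl.1 x, hcl.2 x]
    rw [h4, sub_zero] at this
    exact this.symm
  rw [intX_eq_intV h1 hc, h2]

end Vale.Agent.P267.FL
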