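import Vale.Agent.P267.H928.Int.FLWedge

/-!
# Linearity, positivity and bounds for `intX`
-/

set_option linter.unusedSectionVars false
set_option linter.style.haveILetI false

open Module Topology Set Function MeasureTheory Measure Filter
open scoped ContDiff Manifold ENNReal ComplexConjugate

noncomputable section

namespace Vale.Agent.P267.FL

open Vale.Agent.P267.H928

variable {X : Type*} [TopologicalSpace X] [ChartedSpace C2 X]
variable {V : Type*} [NormedAddCommGroup V] [NormedSpace ℂ V]

theorem loc2_add (κ : ℤ) (e : Ch X) (b b' : X → V) :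
    loc2 κ e (fun x => b x + b' x) = fun z => loc2 κ e b z + loc2 κ e b' z := by
  funext z
  simp only [loc2, smul_add]

theorem loc2_fmul (κ : ℤ) (e : Ch X) (f : X → ℂ) (b : X → V) :
    loc2 κ e (fun x => f x • b x) = fun z => f (e.symm z) • loc2 κ e b z := by
  funext z
  simp only [loc2]
  rw [smul_comm (conj _) (f (e.symm z)), smul_comm _ (f (e.symm z))]

theorem loc2_one_apply (e : Ch X) (b : X → V) (z : C2) :
    loc2 1 e b z = (Complex.normSq (jac e (e.symm z)).det : ℂ) • b (e.symm z) := by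
  simp only [loc2, zpow_one]
  rw [smul_smul, Complex.mul_conj]

theorem Reg2.add {n : WithTop ℕ∞} {κ : ℤ} {b b' : X → V} (h : Reg2 n κ b) (h' : Reg2 n κ b') :
    Reg2 n κ fun x => b x + b' x := by
  intro e he
  rw [loc2_add]
  exact (h e he).add (h' e he)

theorem Reg2.const_smul {n : WithTop ℕ∞} {κ : ℤ} {b : X → V} (h : Reg2 n κ b) (c : ℂ) :
    Reg2 n κ fun x => c • b x := by
  intro e he
  rw [loc2_fmul]
  exact (h e he).const_smul c

theorem Reg2.zero_order {n : WithTop ℕ∞} {κ : ℤ} {b : X → V} (h : Reg2 n κ b) : Reg2 0 κ b :=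
  fun e he => (h e he).of_le (zero_le)

theorem reg2_conj {n : WithTop ℕ∞} {b : X → ℂ} (h : Reg2 n 1 b) :
    Reg2 n 1 fun x => conj (b x) := by
  intro e he
  have h1 : loc2 1 e (fun x => conj (b x)) = fun z => conj (loc2 1 e b z) := by
    funext z
    rw [loc2_one_apply, loc2_one_apply, smul_eq_mul, smul_eq_mul, map_mul, Complex.conj_ofReal]
  rw [h1]
  exact Complex.conjCLE.contDiff.comp_contDiffOn (h e he)

theorem hasCompactSupport_add' {b b' : X → V} (hc : HasCompactSupport b)
    (hc' : HasCompactSupport b') : HasCompactSupport fun x => b x + b' x := hc.add hc'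

section Meas

variable [IsManifold 𝓘(ℂ, C2) ω X] [T2Space X] [SigmaCompactSpace X]

theorem intX_add {n : WithTop ℕ∞} {b b' : X → ℂ} (h : Reg2 n 1 b) (h' : Reg2 n 1 b')
    (hc : HasCompactSupport b) (hc' : HasCompactSupport b') :
    intX (fun x => b x + b' x) = intX b + intX b' := by
  have i1 := integrableX_of_reg h.zero_order hc
  have i2 := integrableX_of_reg h'.zero_order hc'
  rw [intX_eq_intV i1 hc, intX_eq_intV i2 hc',
    intX_eq_intV (b := fun x => b x + b' x) (i1.add i2) (hc.add hc')]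
  exact intV_add i1 i2

theorem intX_const_mul {n : WithTop ℕ∞} (c : ℂ) {b : X → ℂ} (h : Reg2 n 1 b)
    (hc : HasCompactSupport b) : intX (fun x => c * b x) = c * intX b := by
  have i1 := integrableX_of_reg h.zero_order hc
  have hc' : HasCompactSupport fun x => c * b x :=
    HasCompactSupport.intro hc fun x hx => by
      rw [image_eq_zero_of_notMem_tsupport hx, mul_zero]
  rw [intX_eq_intV i1 hc, intX_eq_intV (b := fun x => c * b x) (i1.smul c) hc']
  exact intV_smul c b

theorem intX_neg {n : WithTop ℕ∞} {b : X → ℂ} (h : Reg2 n 1 b)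
    (hc : HasCompactSupport b) : intX (fun x => -b x) = -intX b := by
  have := intX_const_mul (-1) h hc
  simpa using this

theorem intX_sub {n : WithTop ℕ∞} {b b' : X → ℂ} (h : Reg2 n 1 b) (h' : Reg2 n 1 b')
    (hc : HasCompactSupport b) (hc' : HasCompactSupport b') :
    intX (fun x => b x - b' x) = intX b - intX b' := by
  have i1 := integrableX_of_reg h.zero_order hc
  have i2 := integrableX_of_reg h'.zero_order hc'
  rw [intX_eq_intV i1 hc, intX_eq_intV i2 hc',
    intX_eq_intV (b := fun x => b x - b' x) (i1.sub i2) (hc.sub hc')]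
  exact intV_sub i1 i2

theorem intX_zero : intX (fun _ : X => (0 : ℂ)) = 0 := by
  rw [intX_eq_intV (b := fun _ : X => (0 : ℂ)) integrableX_zero
    (HasCompactSupport.intro isCompact_empty fun _ _ => rfl)]
  exact intV_zero

theorem intX_sum {n : WithTop ℕ∞} {ι : Type*} (s : Finset ι) {b : ι → X → ℂ}
    (h : ∀ i ∈ s, Reg2 n 1 (b i)) (hc : ∀ i ∈ s, HasCompactSupport (b i)) :
    intX (fun x => ∑ i ∈ s, b i x) = ∑ i ∈ s, intX (b i) := by
  have i1 : ∀ i ∈ s, IntegrableX (b i) := fun i hi =>
    integrableX_of_reg (h i hi).zero_order (hc i hi)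
  have h1 : (fun x => ∑ i ∈ s, b i x) = ∑ i ∈ s, b i := by funext x; simp
  have hc' : HasCompactSupport (∑ i ∈ s, b i) := by
    have hK : IsCompact (⋃ i ∈ s, tsupport (b i)) := s.isCompact_biUnion hc
    refine HasCompactSupport.intro hK fun x hx => ?_
    rw [Finset.sum_apply]
    refine Finset.sum_eq_zero fun i hi => image_eq_zero_of_notMem_tsupport fun hx' => hx ?_
    exact mem_iUnion₂.2 ⟨i, hi, hx'⟩
  rw [h1, intX_eq_intV (IntegrableX.sum s i1) hc', intV_sum s i1]
  exact Finset.sum_congr rfl fun i hi => (intX_eq_intV (i1 i hi) (hc i hi)).symm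

theorem intX_conj {n : WithTop ℕ∞} {b : X → ℂ} (h : Reg2 n 1 b) (hc : HasCompactSupport b) :
    intX (fun x => conj (b x)) = conj (intX b) := by
  have hc' : HasCompactSupport fun x => conj (b x) :=
    HasCompactSupport.intro hc fun x hx => by
      rw [image_eq_zero_of_notMem_tsupport hx, map_zero]
  rw [intX_eq_intV (integrableX_of_reg h.zero_order hc) hc,
    intX_eq_intV (integrableX_of_reg (reg2_conj h.zero_order) hc') hc']
  exact intV_conj b

/-- chart formula for `intX` -/
theorem intX_chart {b : X → ℂ} (h : IntegrableX b) (hc : HasCompactSupport b) {e : Ch X}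
    (he : e ∈ atlas C2 X) (hs : ∀ x ∉ e.source, b x = 0) :
    intX b = 4 * ∫ z in e.target, loc2 1 e b z := by
  rw [intX_eq_intV h hc, intV_chart he h hs, Complex.real_smul]
  norm_num

/-! ### positivity -/

instance isOpenPosMeasure_volX [MeasurableSpace X] [BorelSpace X] :
    IsOpenPosMeasure (volX X) := by
  haveI : IsManifold 𝓘(ℝ, C2) ∞ X := Int.isManifold_real
  haveI : Int.PosAtlas C2 X := Int.posAtlas_complex
  refine ⟨fun U hU hne h0 => ?_⟩
  obtain ⟨x, hx⟩ := hne
  set e := chartAt C2 x with he'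
  have he : e ∈ atlas C2 X := chart_mem_atlas C2 x
  have hUs : IsOpen (U ∩ e.source) := hU.inter e.open_source
  have hm : MeasurableSet (U ∩ e.source) := hUs.measurableSet
  have h1 := (pou X).lintegral_meas_chart volume he (g := (U ∩ e.source).indicator fun _ => 1)
    (measurable_const.indicator hm) (fun y hy => indicator_of_notMem (fun h => hy h.2) _)
  rw [lintegral_indicator_const hm, one_mul] at h1
  have h2 : (pou X).meas volume (U ∩ e.source) = 0 :=
    measure_mono_null inter_subset_left h0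
  rw [h2] at h1
  have hT : IsOpen (e.target ∩ e.symm ⁻¹' U) := e.isOpen_inter_preimage_symm hU
  have h3 : ∫⁻ z in e.target ∩ e.symm ⁻¹' U, ENNReal.ofReal ((pou X).w e z) = 0 := by
    refine le_antisymm ?_ zero_le
    rw [h1, ← lintegral_indicator hT.measurableSet, ← lintegral_indicator e.open_target.measurableSet]
    refine lintegral_mono fun z => ?_
    by_cases hz : z ∈ e.target ∩ e.symm ⁻¹' U
    · rw [indicator_of_mem hz, indicator_of_mem hz.1,
        indicator_of_mem (show e.symm z ∈ U ∩ e.source from ⟨hz.2, e.map_target hz.1⟩), mul_one]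
    · rw [indicator_of_notMem hz]; exact zero_le
  have hmeas : AEMeasurable (fun z => ENNReal.ofReal ((pou X).w e z))
      (volume.restrict (e.target ∩ e.symm ⁻¹' U)) :=
    ((pou X).aemeas_w volume he).mono_measure (Measure.restrict_mono inter_subset_left le_rfl)
  rw [lintegral_eq_zero_iff' hmeas] at h3
  have h4 : ∀ᵐ z ∂(volume.restrict (e.target ∩ e.symm ⁻¹' U)), False := by
    filter_upwards [h3, ae_restrict_mem hT.measurableSet] with z hz hz'
    have := (pou X).w_pos he hz'.1
    simp only [Pi.zero_apply, ENNReal.ofReal_eq_zero] at hz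
    exact absurd hz (not_le.2 this)
  have h5 : volume (e.target ∩ e.symm ⁻¹' U) = 0 := by
    rw [Filter.eventually_false_iff_eq_bot, ae_eq_bot] at h4
    rwa [Measure.restrict_eq_zero] at h4
  have h6 : (e.target ∩ e.symm ⁻¹' U).Nonempty := ⟨e x, mem_chart_target C2 x, by
    rw [mem_preimage, (chartAt C2 x).left_inv (mem_chart_source C2 x)]; exact hx⟩
  exact (hT.measure_pos volume h6).ne' h5

/-- the integral of a nonnegative form -/
theorem intX_ofReal_nonneg {β : X → ℝ} (h : Reg2 0 1 fun x => (β x : ℂ))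
    (hc : HasCompactSupport fun x => (β x : ℂ)) (h0 : ∀ x, 0 ≤ β x) :
    ∃ r : ℝ, 0 ≤ r ∧ intX (fun x => (β x : ℂ)) = r ∧ ((∃ x, β x ≠ 0) → 0 < r) := by
  letI : MeasurableSpace X := borel X
  haveI : BorelSpace X := ⟨rfl⟩
  have hi := integrableX_of_reg h hc
  have h1 : quoX (fun x => (β x : ℂ)) = fun x => (((wX x)⁻¹ * β x : ℝ) : ℂ) := by
    funext x
    rw [quoX_apply, Complex.real_smul]
    push_cast
    rfl
  have hcont : Continuous fun x => (wX x)⁻¹ * β x := by
    have h2 := continuous_quoX h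
    rw [h1] at h2
    have h3 := Complex.continuous_re.comp h2
    simpa [Function.comp_def] using h3
  have hcs : HasCompactSupport fun x => (wX x)⁻¹ * β x := by
    refine HasCompactSupport.intro hc fun x hx => ?_
    have : (β x : ℂ) = 0 := image_eq_zero_of_notMem_tsupport (f := fun x => (β x : ℂ)) hx
    rw [Complex.ofReal_eq_zero] at this
    rw [this, mul_zero]
  have hnn : ∀ x, 0 ≤ (wX x)⁻¹ * β x := fun x => mul_nonneg (inv_nonneg.2 (wX_pos x).le) (h0 x)
  refine ⟨4 * ∫ x, (wX x)⁻¹ * β x ∂(volX X), mul_nonneg (by norm_num) (integral_nonneg hnn), ?_,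
    ?_⟩
  · rw [intX_eq_intV hi hc, intV, h1, integral_complex_ofReal, Complex.real_smul]
    push_cast
    rfl
  · rintro ⟨x, hx⟩
    refine mul_pos (by norm_num) ?_
    refine hcont.integral_pos_of_hasCompactSupport_nonneg_nonzero hcs hnn (x := x) ?_
    exact mul_ne_zero (inv_ne_zero (wX_pos x).ne') hx

theorem intX_re_pos {β : X → ℝ} (h : Reg2 0 1 fun x => (β x : ℂ))
    (hc : HasCompactSupport fun x => (β x : ℂ)) (h0 : ∀ x, 0 ≤ β x) {x : X} (hx : β x ≠ 0) :
    0 < (intX fun x => (β x : ℂ)).re := by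
  obtain ⟨r, -, h2, h3⟩ := intX_ofReal_nonneg h hc h0
  rw [h2, Complex.ofReal_re]
  exact h3 ⟨x, hx⟩

theorem intX_re_nonneg {β : X → ℝ} (h : Reg2 0 1 fun x => (β x : ℂ))
    (hc : HasCompactSupport fun x => (β x : ℂ)) (h0 : ∀ x, 0 ≤ β x) :
    0 ≤ (intX fun x => (β x : ℂ)).re := by
  obtain ⟨r, h1, h2, -⟩ := intX_ofReal_nonneg h hc h0
  rw [h2, Complex.ofReal_re]
  exact h1

/-- bound for the integral by an integral -/
theorem norm_intX_le {b : X → ℂ} {β : X → ℝ} (h : Reg2 0 1 b) (hc : HasCompactSupport b)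
    (h' : Reg2 0 1 fun x => (β x : ℂ)) (hc' : HasCompactSupport fun x => (β x : ℂ))
    (hb : ∀ x, ‖b x‖ ≤ β x) : ‖intX b‖ ≤ (intX fun x => (β x : ℂ)).re := by
  letI : MeasurableSpace X := borel X
  haveI : BorelSpace X := ⟨rfl⟩
  have hi := integrableX_of_reg h hc
  have hi' := integrableX_of_reg h' hc'
  have h1 : quoX (fun x => (β x : ℂ)) = fun x => (((wX x)⁻¹ * β x : ℝ) : ℂ) := by
    funext x
    rw [quoX_apply, Complex.real_smul]
    push_cast
    rfl
  have h2 : intX (fun x => (β x : ℂ)) = ((4 * ∫ x, (wX x)⁻¹ * β x ∂(volX X) : ℝ) : ℂ) := by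
    rw [intX_eq_intV hi' hc', intV, h1, integral_complex_ofReal, Complex.real_smul]
    push_cast
    rfl
  have h3 : Integrable (fun x => (wX x)⁻¹ * β x) (volX X) := by
    have h4 : Integrable (quoX fun x => (β x : ℂ)) (volX X) := hi'
    rw [h1] at h4
    exact h4.re
  rw [h2, Complex.ofReal_re, intX_eq_intV hi hc, intV, norm_smul, Real.norm_of_nonneg (by norm_num)]
  refine mul_le_mul_of_nonneg_left ?_ (by norm_num)
  refine norm_integral_le_of_norm_le h3 (Filter.Eventually.of_forall fun x => ?_)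
  rw [quoX_apply, norm_smul, norm_inv, Real.norm_of_nonneg (wX_pos x).le]
  exact mul_le_mul_of_nonneg_left (hb x) (inv_nonneg.2 (wX_pos x).le)

end Meas

end Vale.Agent.P267.FL
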