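import Vale.Agent.P267.H928.Int.Stokes
import Mathlib.RingTheory.Norm.Transitivity
import Mathlib.RingTheory.Complex
import Mathlib.Analysis.Complex.Basic
import Mathlib.Analysis.Calculus.ContDiff.Basic
import Mathlib.Analysis.Analytic.Basic

/-!
# Complex manifolds

A complex manifold is a real manifold with a positively oriented atlas.
-/

open Module Topology Set Function
open scoped ContDiff Manifold

noncomputable section

namespace Vale.Agent.P267.H928.Int

variable {E : Type*} [NormedAddCommGroup E] [NormedSpace ℂ E] [NormedSpace ℝ E]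
  [IsScalarTower ℝ ℂ E]
variable {M : Type*} [TopologicalSpace M] [ChartedSpace E M]

theorem chg_contDiffOn [IsManifold 𝓘(ℂ, E) ω M] {e e' : OpenPartialHomeomorph M E}
    (he : e ∈ atlas E M) (he' : e' ∈ atlas E M) :
    ContDiffOn ℂ ω (chg e e') (e.target ∩ e.symm ⁻¹' e'.source) := by
  have h := HasGroupoid.compatible (G := contDiffGroupoid ω 𝓘(ℂ, E)) he he'
  rw [contDiffGroupoid, mem_groupoid_of_pregroupoid] at h
  have h1 := h.1
  simp only [contDiffPregroupoid] at h1
  have h2 : ContDiffOn ℂ ω ((e' : M → E) ∘ (e.symm : E → M))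
      (e.target ∩ e.symm ⁻¹' e'.source) := by
    simpa using h1
  exact h2

theorem chg_contDiffAt_complex [IsManifold 𝓘(ℂ, E) ω M] {e e' : OpenPartialHomeomorph M E}
    (he : e ∈ atlas E M) (he' : e' ∈ atlas E M) {z : E} (hz : z ∈ e.target)
    (hz' : e.symm z ∈ e'.source) : ContDiffAt ℂ ω (chg e e') z :=
  (chg_contDiffOn he he').contDiffAt
    ((e.symm.isOpen_inter_preimage e'.open_source).mem_nhds ⟨hz, hz'⟩)

/-- A complex manifold is a smooth real manifold. -/
theorem isManifold_real [IsManifold 𝓘(ℂ, E) ω M] : IsManifold 𝓘(ℝ, E) ∞ M := by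
  refine isManifold_of_contDiffOn 𝓘(ℝ, E) ∞ M fun e e' he he' => ?_
  have h1 := (chg_contDiffOn (M := M) he he').of_le (m := ∞) (by simp)
  have h2 : ContDiffOn ℝ ∞ ((e' : M → E) ∘ (e.symm : E → M))
      (e.target ∩ e.symm ⁻¹' e'.source) := h1.restrict_scalars ℝ
  simpa using h2

theorem det_real [FiniteDimensional ℂ E] (L : E →L[ℂ] E) :
    (L.restrictScalars ℝ).det = Complex.normSq (LinearMap.det (L : E →ₗ[ℂ] E)) := by
  have h := LinearMap.det_restrictScalars (R := ℝ) (S := ℂ) (f := (L : E →ₗ[ℂ] E))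
  rw [Algebra.norm_complex_apply] at h
  exact h

theorem fderiv_chg_real [IsManifold 𝓘(ℂ, E) ω M] {e e' : OpenPartialHomeomorph M E}
    (he : e ∈ atlas E M) (he' : e' ∈ atlas E M) {z : E} (hz : z ∈ e.target)
    (hz' : e.symm z ∈ e'.source) :
    fderiv ℝ (chg e e') z = (fderiv ℂ (chg e e') z).restrictScalars ℝ :=
  ((chg_contDiffAt_complex he he' hz hz').differentiableAt (by simp)).fderiv_restrictScalars ℝ

/-- The atlas of a complex manifold is positively oriented. -/
theorem posAtlas_complex [FiniteDimensional ℂ E] [IsManifold 𝓘(ℂ, E) ω M] : PosAtlas E M := by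
  refine ⟨fun e he e' he' z hz hz' => ?_⟩
  rw [fderiv_chg_real he he' hz hz', det_real, Complex.normSq_pos]
  have h1 : DifferentiableAt ℂ (chg e e') z :=
    (chg_contDiffAt_complex he he' hz hz').differentiableAt (by simp)
  have hx : e'.symm (chg e e' z) = e.symm z := e'.left_inv hz'
  have h2 : DifferentiableAt ℂ (chg e' e) (chg e e' z) :=
    (chg_contDiffAt_complex he' he (e'.map_source hz')
      (by rw [hx]; exact e.map_target hz)).differentiableAt (by simp)
  have h3 : (fun y => chg e' e (chg e e' y)) =ᶠ[𝓝 z] fun y => y := by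
    filter_upwards [(e.symm.isOpen_inter_preimage e'.open_source).mem_nhds ⟨hz, hz'⟩] with y hy
    simp only [chg]
    rw [e'.left_inv hy.2, e.right_inv hy.1]
  have h4 : (fderiv ℂ (chg e' e) (chg e e' z)).comp (fderiv ℂ (chg e e') z) =
      ContinuousLinearMap.id ℂ E := by
    rw [← fderiv_fun_comp z h2 h1, h3.fderiv_eq, fderiv_fun_id]
  intro h0
  have h5 : LinearMap.det ((fderiv ℂ (chg e' e) (chg e e' z) : E →ₗ[ℂ] E) ∘ₗ
      (fderiv ℂ (chg e e') z : E →ₗ[ℂ] E)) = LinearMap.det (LinearMap.id : E →ₗ[ℂ] E) :=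
    congrArg (fun L : E →L[ℂ] E => LinearMap.det (L : E →ₗ[ℂ] E)) h4
  rw [LinearMap.det_comp, h0, mul_zero, LinearMap.det_id] at h5
  exact zero_ne_one h5

end Vale.Agent.P267.H928.Int
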