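import Vale.Agent.P267.H399.Calc
import Vale.Agent.P267.H928.Int.Cplx

/-!
# Integration of (2,2)-forms on complex surfaces in the language of helper399

`intX b` is computed: it is `4` times the integral of the density `loc2 1 e b`.
-/

set_option linter.unusedSectionVars false

open Module Topology Set Function MeasureTheory Measure Filter
open scoped ContDiff Manifold ENNReal ComplexConjugate

noncomputable section

namespace Vale.Agent.P267.FL

open Vale.Agent.P267.H928.Int (chg IsDens DCont DSupp Pou PosAtlas)
open Vale.Agent.P267.H928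

variable {X : Type*} [TopologicalSpace X] [ChartedSpace C2 X]
variable {V : Type*} [NormedAddCommGroup V] [NormedSpace ℂ V]

/-! ### densities -/

section Dens

/-- the density of the `(2,2)`-form `b` -/
def dens (b : X → V) : Ch X → C2 → V := fun e z => loc2 1 e b z

theorem dens_apply (b : X → V) (e : Ch X) (z : C2) : dens b e z = loc2 1 e b z := rfl

theorem dens_add (b b' : X → V) : dens (b + b') = dens b + dens b' := by
  funext e z; simp [dens, loc2]

theorem dens_rsmul (r : ℝ) (b : X → V) : dens (r • b) = r • dens b := by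
  funext e z
  simp only [dens, loc2, Pi.smul_apply]
  rw [smul_comm _ r, smul_comm _ r]

theorem dens_sum {ι : Type*} (s : Finset ι) (b : ι → X → V) :
    dens (∑ i ∈ s, b i) = ∑ i ∈ s, dens (b i) := by
  funext e z
  simp only [dens, loc2, Finset.sum_apply, Finset.smul_sum]

theorem dsupp_dens {K : Set X} {b : X → V} (h : ∀ x ∉ K, b x = 0) : DSupp K (dens b) := by
  intro e he z hz hx
  simp [dens, loc2, h _ hx]

theorem dcont_dens {b : X → V} (h : Reg2 0 1 b) : DCont X (dens b) :=
  fun e he => (h e he).continuousOn

variable [IsManifold 𝓘(ℂ, C2) ω X]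

theorem det_chg {e e' : Ch X} (he : e ∈ atlas C2 X) (he' : e' ∈ atlas C2 X) {z : C2}
    (hz : z ∈ e.target) (hz' : e.symm z ∈ e'.source) :
    (fderiv ℝ (chg e e') z).det = Complex.normSq (jacM e e' (e.symm z)).det := by
  rw [Int.fderiv_chg_real he he' hz hz', Int.det_real]
  congr 1
  have h1 : LinearMap.toMatrix' (fderiv ℂ (chg e e') z : C2 →ₗ[ℂ] C2) = jacM e e' (e.symm z) := by
    ext p i
    have h2 := jacM_apply he he' (e.map_target hz) hz' p i
    rw [e.right_inv hz] at h2
    rw [h2, LinearMap.toMatrix'_apply]
    rfl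
  rw [← h1, LinearMap.det_toMatrix']

theorem isDens_dens (b : X → V) : IsDens X (dens b) := by
  intro e he e' he' z hz hz'
  have h := loc2_change (κ := 1) he he' (e.map_target hz) hz' b
  rw [e.right_inv hz] at h
  rw [dens_apply, dens_apply, h, det_chg he he' hz hz', zpow_one, smul_smul, Complex.mul_conj]
  rfl

variable (X) in
/-- The chosen partition of unity. -/
def pou [T2Space X] [SigmaCompactSpace X] : Pou C2 X :=
  haveI : IsManifold 𝓘(ℝ, C2) ∞ X := Int.isManifold_real
  Classical.choice Int.exists_pou

end Dens

/-! ### the reference measure -/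

section Meas

variable [IsManifold 𝓘(ℂ, C2) ω X] [T2Space X] [SigmaCompactSpace X]

section

variable [MeasurableSpace X] [BorelSpace X]

variable (X) in
/-- the reference measure on `X` -/
def volX : Measure X := (pou X).meas volume

instance : IsLocallyFiniteMeasure (volX X) :=
  haveI : IsManifold 𝓘(ℝ, C2) ∞ X := Int.isManifold_real
  haveI : PosAtlas C2 X := Int.posAtlas_complex
  (pou X).isLocallyFinite_meas volume

/-- the quotient of the `(2,2)`-form `b` by the reference volume form (`ℝ`-linear in `b`) -/
def quoX (b : X → V) : X → V := (pou X).quo (dens b)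

/-- the positive function `x ↦` reference density in the preferred chart at `x` -/
def wX (x : X) : ℝ := (pou X).w (chartAt C2 x) (chartAt C2 x x)

theorem quoX_apply (b : X → V) (x : X) : quoX b x = (wX x)⁻¹ • b x := by
  have : dens b (chartAt C2 x) (chartAt C2 x x) = b x := loc2_chartAt 1 b x
  rw [quoX, Int.Pou.quo, this]
  rfl

theorem wX_pos (x : X) : 0 < wX x :=
  haveI : IsManifold 𝓘(ℝ, C2) ∞ X := Int.isManifold_real
  haveI : PosAtlas C2 X := Int.posAtlas_complex
  (pou X).w_pos (chart_mem_atlas C2 x) (mem_chart_target C2 x)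

theorem continuous_quoX {b : X → V} (h : Reg2 0 1 b) : Continuous (quoX b) :=
  haveI : IsManifold 𝓘(ℝ, C2) ∞ X := Int.isManifold_real
  haveI : PosAtlas C2 X := Int.posAtlas_complex
  (pou X).continuous_quo (isDens_dens b) (dcont_dens h)

theorem integrable_quoX {b : X → V} (h : Reg2 0 1 b) (hc : HasCompactSupport b) :
    Integrable (quoX b) (volX X) := by
  refine (continuous_quoX h).integrable_of_hasCompactSupport ?_
  refine HasCompactSupport.intro hc fun x hx => ?_
  rw [quoX_apply, image_eq_zero_of_notMem_tsupport hx, smul_zero]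

/-- the integral of a function over `X`, in a chart -/
theorem integral_volX_chart {e : Ch X} (he : e ∈ atlas C2 X) {f : X → V}
    (hf : AEStronglyMeasurable f (volX X)) (hf0 : ∀ x ∉ e.source, f x = 0) :
    ∫ x, f x ∂(volX X) = ∫ z in e.target, (pou X).w e z • f (e.symm z) :=
  haveI : IsManifold 𝓘(ℝ, C2) ∞ X := Int.isManifold_real
  haveI : PosAtlas C2 X := Int.posAtlas_complex
  (pou X).integral_chart volume he hf hf0

end

/-- the integral of the `(2,2)`-form `b` with values in `V` -/
def intV (b : X → V) : V :=
  letI : MeasurableSpace X := borel X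
  haveI : BorelSpace X := ⟨rfl⟩
  (4 : ℝ) • ∫ x, quoX b x ∂(volX X)

/-- integrable `(2,2)`-forms -/
def IntegrableX (b : X → V) : Prop :=
  letI : MeasurableSpace X := borel X
  haveI : BorelSpace X := ⟨rfl⟩
  Integrable (quoX b) (volX X)

theorem integrableX_of_reg {b : X → V} (h : Reg2 0 1 b) (hc : HasCompactSupport b) :
    IntegrableX b :=
  letI : MeasurableSpace X := borel X
  haveI : BorelSpace X := ⟨rfl⟩
  integrable_quoX h hc

theorem intV_add {b b' : X → V} (h : IntegrableX b) (h' : IntegrableX b') :
    intV (b + b') = intV b + intV b' := by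
  letI : MeasurableSpace X := borel X
  haveI : BorelSpace X := ⟨rfl⟩
  have h1 : quoX (b + b') = quoX b + quoX b' := by
    funext x; simp [quoX_apply, smul_add]
  rw [intV, intV, intV, h1, ← smul_add]
  congr 1
  exact integral_add h h'

theorem intV_smul (c : ℂ) (b : X → V) : intV (c • b) = c • intV b := by
  letI : MeasurableSpace X := borel X
  haveI : BorelSpace X := ⟨rfl⟩
  have h1 : quoX (c • b) = c • quoX b := by
    funext x
    simp only [quoX_apply, Pi.smul_apply]
    rw [smul_comm]
  rw [intV, intV, h1, smul_comm c]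
  congr 1
  exact integral_smul c _

theorem intV_neg (b : X → V) : intV (-b) = - intV b := by
  have := intV_smul (-1 : ℂ) b
  simpa using this

theorem IntegrableX.smul {b : X → V} (h : IntegrableX b) (c : ℂ) : IntegrableX (c • b) := by
  letI : MeasurableSpace X := borel X
  haveI : BorelSpace X := ⟨rfl⟩
  have h1 : quoX (c • b) = c • quoX b := by
    funext x
    simp only [quoX_apply, Pi.smul_apply]
    rw [smul_comm]
  change Integrable (quoX (c • b)) (volX X)
  rw [h1]
  exact Integrable.smul c h

theorem IntegrableX.neg {b : X → V} (h : IntegrableX b) : IntegrableX (-b) := by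
  have := h.smul (-1)
  simpa using this

theorem IntegrableX.add {b b' : X → V} (h : IntegrableX b) (h' : IntegrableX b') :
    IntegrableX (b + b') := by
  letI : MeasurableSpace X := borel X
  haveI : BorelSpace X := ⟨rfl⟩
  have h1 : quoX (b + b') = quoX b + quoX b' := by
    funext x; simp [quoX_apply, smul_add]
  change Integrable (quoX (b + b')) (volX X)
  rw [h1]
  exact Integrable.add h h'

theorem IntegrableX.sub {b b' : X → V} (h : IntegrableX b) (h' : IntegrableX b') :
    IntegrableX (b - b') := by
  rw [sub_eq_add_neg]; exact h.add h'.neg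

theorem intV_sub {b b' : X → V} (h : IntegrableX b) (h' : IntegrableX b') :
    intV (b - b') = intV b - intV b' := by
  rw [sub_eq_add_neg, intV_add h h'.neg, intV_neg, sub_eq_add_neg]

theorem intV_zero : intV (0 : X → V) = 0 := by
  have := intV_smul (0 : ℂ) (0 : X → V)
  simpa using this

theorem integrableX_zero : IntegrableX (0 : X → V) := by
  letI : MeasurableSpace X := borel X
  haveI : BorelSpace X := ⟨rfl⟩
  have h1 : quoX (0 : X → V) = 0 := by funext x; simp [quoX_apply]
  change Integrable (quoX (0 : X → V)) (volX X)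
  rw [h1]
  exact integrable_zero _ _ _

theorem IntegrableX.sum {ι : Type*} (s : Finset ι) {b : ι → X → V}
    (h : ∀ i ∈ s, IntegrableX (b i)) : IntegrableX (∑ i ∈ s, b i) := by
  classical
  induction s using Finset.induction_on with
  | empty => simpa using integrableX_zero
  | insert i s hi ih =>
    rw [Finset.sum_insert hi]
    exact (h i (Finset.mem_insert_self i s)).add
      (ih fun j hj => h j (Finset.mem_insert_of_mem hj))

theorem intV_sum {ι : Type*} (s : Finset ι) {b : ι → X → V} (h : ∀ i ∈ s, IntegrableX (b i)) :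
    intV (∑ i ∈ s, b i) = ∑ i ∈ s, intV (b i) := by
  classical
  induction s using Finset.induction_on with
  | empty => simpa using intV_zero
  | insert i s hi ih =>
    rw [Finset.sum_insert hi, Finset.sum_insert hi,
      intV_add (h i (Finset.mem_insert_self i s))
        (IntegrableX.sum s fun j hj => h j (Finset.mem_insert_of_mem hj)),
      ih fun j hj => h j (Finset.mem_insert_of_mem hj)]

theorem intV_conj (b : X → ℂ) : intV (fun x => conj (b x)) = conj (intV b) := by
  letI : MeasurableSpace X := borel X
  haveI : BorelSpace X := ⟨rfl⟩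
  have h1 : quoX (fun x => conj (b x)) = fun x => conj (quoX b x) := by
    funext x
    simp only [quoX_apply, Complex.real_smul, map_mul, Complex.conj_ofReal]
  have h2 : ∫ x, conj (quoX b x) ∂(volX X) = conj (∫ x, quoX b x ∂(volX X)) := integral_conj
  rw [intV, intV, h1, h2]
  simp only [Complex.real_smul, map_mul, Complex.conj_ofReal]

/-- chart formula -/
theorem intV_chart {e : Ch X} (he : e ∈ atlas C2 X) {b : X → V} (h : IntegrableX b)
    (hs : ∀ x ∉ e.source, b x = 0) : intV b = (4 : ℝ) • ∫ z in e.target, loc2 1 e b z := by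
  letI : MeasurableSpace X := borel X
  haveI : BorelSpace X := ⟨rfl⟩
  haveI : IsManifold 𝓘(ℝ, C2) ∞ X := Int.isManifold_real
  haveI : PosAtlas C2 X := Int.posAtlas_complex
  have := (pou X).integ_chart volume he (isDens_dens b)
    (show AEStronglyMeasurable (quoX b) (volX X) from h.aestronglyMeasurable) (dsupp_dens hs)
  exact congrArg ((4 : ℝ) • ·) this

/-- the integral is computed with any finite partition of unity -/
theorem intV_eq_sum {b : X → V} (h : IntegrableX b) {N : Type*} [Fintype N] (e : N → Ch X)
    (he : ∀ i, e i ∈ atlas C2 X) (r : N → X → ℝ) (hr : ∀ i, Continuous (r i))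
    (hb : ∀ i, ∃ C, ∀ x, |r i x| ≤ C) (hsub : ∀ i, support (r i) ⊆ (e i).source)
    (hsum : ∀ x, b x ≠ 0 → ∑ i, r i x = 1) :
    intV b = (4 : ℝ) • ∑ i, ∫ z in (e i).target, r i ((e i).symm z) • loc2 1 (e i) b z := by
  letI : MeasurableSpace X := borel X
  haveI : BorelSpace X := ⟨rfl⟩
  haveI : IsManifold 𝓘(ℝ, C2) ∞ X := Int.isManifold_real
  haveI : PosAtlas C2 X := Int.posAtlas_complex
  have := (pou X).integ_eq_sum volume (isDens_dens b) h e he r hr hb hsub (by
    intro x hx
    refine hsum x fun h0 => hx ?_
    have := quoX_apply b x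
    rw [h0, smul_zero] at this
    exact this)
  exact congrArg ((4 : ℝ) • ·) this

theorem hasInt_intV {b : X → ℂ} (h : IntegrableX b) : HasInt b (intV b) := by
  intro N e r he hr hrc hrs hsum
  have hb : ∀ i, ∃ C, ∀ x, |r i x| ≤ C := by
    intro i
    obtain ⟨C, hC⟩ := (hrc i).exists_bound_of_continuousOn (hr i).continuousOn
    exact ⟨max C 0, fun x => by
      by_cases hx : x ∈ tsupport (r i)
      · exact (hC x hx).trans (le_max_left _ _)
      · rw [image_eq_zero_of_notMem_tsupport hx, abs_zero]; exact le_max_right _ _⟩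
  rw [intV_eq_sum h e he r hr hb (fun i => (subset_tsupport _).trans (hrs i))
    (fun x hx => hsum x (subset_tsupport _ hx)), Complex.real_smul, Finset.mul_sum]
  refine Finset.sum_congr rfl fun i _ => ?_
  rw [← integral_const_mul]
  refine integral_congr_ae (Filter.Eventually.of_forall fun z => ?_)
  simp only [Complex.real_smul]
  push_cast
  ring

/-- There is a finite partition of unity on a compact set. -/
theorem exists_finite_pou {K : Set X} (hK : IsCompact K) :
    ∃ (N : ℕ) (e : Fin N → Ch X) (r : Fin N → X → ℝ), (∀ i, e i ∈ atlas C2 X) ∧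
      (∀ i, Continuous (r i)) ∧ (∀ i, HasCompactSupport (r i)) ∧
      (∀ i, tsupport (r i) ⊆ (e i).source) ∧ (∀ x ∈ K, ∑ i, r i x = 1) := by
  classical
  haveI : LocallyCompactSpace X := ChartedSpace.locallyCompactSpace C2 X
  obtain ⟨L, hL, hKL⟩ := exists_compact_superset hK
  obtain ⟨f, hf1, hf0, hfc, -⟩ := exists_continuous_one_zero_of_isCompact hK
    (isClosed_compl_iff.mpr (isOpen_interior (s := L))) (by
      rw [Set.disjoint_compl_right_iff_subset]; exact hKL)
  set P := pou X
  have hfin : {i | (tsupport (P.ρ i) ∩ L).Nonempty}.Finite :=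
    P.locFin.closure.finite_nonempty_inter_compact hL
  set S := hfin.toFinset
  refine ⟨S.card, fun i => P.e (S.equivFin.symm i), fun i x => f x * P.ρ (S.equivFin.symm i) x,
    fun i => P.mem _, fun i => f.continuous.mul (P.smooth _).continuous, fun i => ?_, fun i => ?_,
    fun x hx => ?_⟩
  · refine HasCompactSupport.intro hL fun x hx => ?_
    have : f x = 0 := hf0 (fun h => hx (interior_subset h))
    simp [this]
  · exact (tsupport_mul_subset_right).trans (P.sub _)
  · have h1 : f x = 1 := hf1 hx
    simp only [h1, one_mul]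
    have h2 : ∑ i : Fin S.card, P.ρ (S.equivFin.symm i) x = ∑ i : S, P.ρ i x :=
      Equiv.sum_comp S.equivFin.symm fun i : S => P.ρ i x
    rw [h2, Finset.sum_coe_sort S fun i => P.ρ i x, ← P.sum_one x,
      finsum_eq_sum_of_support_subset]
    intro i hi
    simp only [Finset.coe_sort_coe, S, Finite.coe_toFinset, mem_setOf_eq]
    exact ⟨x, subset_tsupport _ hi, interior_subset (hKL hx)⟩

theorem HasInt.unique {b : X → ℂ} (hc : HasCompactSupport b) {I I' : ℂ} (h : HasInt b I)
    (h' : HasInt b I') : I = I' := by
  obtain ⟨N, e, r, he, hr, hrc, hrs, hsum⟩ := exists_finite_pou hc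
  rw [← h N e r he hr hrc hrs hsum, ← h' N e r he hr hrc hrs hsum]

theorem intX_eq_intV {b : X → ℂ} (h : IntegrableX b) (hc : HasCompactSupport b) :
    intX b = intV b := by
  have hex : ∃ I, HasInt b I := ⟨_, hasInt_intV h⟩
  rw [intX, dif_pos hex]
  exact HasInt.unique hc hex.choose_spec (hasInt_intV h)

theorem hasInt_intX {b : X → ℂ} (h : Reg2 0 1 b) (hc : HasCompactSupport b) :
    HasInt b (intX b) := by
  rw [intX_eq_intV (integrableX_of_reg h hc) hc]
  exact hasInt_intV (integrableX_of_reg h hc)

end Meas

end Vale.Agent.P267.FL
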