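import Mathlib.Analysis.Calculus.DifferentialForm.Basic
import Mathlib.Analysis.Calculus.LineDeriv.IntegrationByParts
import Mathlib.MeasureTheory.Function.LocallyIntegrable

/-!
# Integration of differential forms: the flat Stokes formula

For a `C¹` form `η` of degree `n` with compact support on a real vector space of dimension `n + 1`,
the integral of `extDeriv η` is zero. Also the product rule for `extDeriv`.
-/

open MeasureTheory Measure Module Topology Set
open scoped ContDiff

noncomputable section

namespace Vale.Agent.P267.H928.Int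

variable {E : Type*} [NormedAddCommGroup E] [NormedSpace ℝ E]
variable {F : Type*} [NormedAddCommGroup F] [NormedSpace ℝ F]

section Flat

variable [MeasurableSpace E] [BorelSpace E] [FiniteDimensional ℝ E]
  (μ : Measure E) [μ.IsAddHaarMeasure]

/-- The integral of a directional derivative of a `C¹` function with compact support is zero. -/
theorem integral_fderiv_eq_zero {g : E → F} (hg : ContDiff ℝ 1 g) (hc : HasCompactSupport g)
    (v : E) : ∫ x, fderiv ℝ g x v ∂μ = 0 := by
  have h1 : Continuous fun x => fderiv ℝ g x v :=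
    (hg.continuous_fderiv one_ne_zero).clm_apply continuous_const
  have h2 : HasCompactSupport fun x => fderiv ℝ g x v := by
    have := hc.fderiv (𝕜 := ℝ)
    exact this.comp_left (g := fun L : E →L[ℝ] F => L v) (by simp)
  have i1 : Integrable (fun x => fderiv ℝ g x v) μ := h1.integrable_of_hasCompactSupport h2
  have i2 : Integrable g μ := hg.continuous.integrable_of_hasCompactSupport hc
  have key := integral_smul_fderiv_eq_neg_fderiv_smul_of_integrable (μ := μ) (𝕜 := ℝ)
    (f := fun _ : E => (1 : ℝ)) (g := g) (v := v) (by simp) (by simpa using i1) (by simpa using i2)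
    (fun x _ => differentiableAt_const _)
    (fun x _ => (hg.differentiable one_ne_zero) x)
  simpa using key

/-- Stokes' formula on a vector space. -/
theorem integral_extDeriv_eq_zero {n : ℕ} {η : E → E [⋀^Fin n]→L[ℝ] F} (hη : ContDiff ℝ 1 η)
    (hc : HasCompactSupport η) (v : Fin (n + 1) → E) : ∫ x, extDeriv η x v ∂μ = 0 := by
  have hd : Differentiable ℝ η := hη.differentiable one_ne_zero
  have h0 : ∀ x, extDeriv η x v =
      ∑ i, ((-1 : ℝ) ^ (i : Fin (n + 1)).val) •
        fderiv ℝ (fun y => η y (i.removeNth v)) x (v i) := by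
    intro x
    rw [extDeriv_apply (hd x) v]
    refine Finset.sum_congr rfl fun i _ => ?_
    rcases neg_one_pow_eq_or ℤ i.val with h | h <;>
    rcases neg_one_pow_eq_or ℝ i.val with h' | h' <;> rw [h, h'] <;> try simp
    all_goals
      exfalso
      rcases Nat.even_or_odd i.val with he | ho
      · simp [he.neg_one_pow] at h h' ; try norm_num at h h'
      · simp [ho.neg_one_pow] at h h' ; try norm_num at h h'
  have hev : ∀ w : Fin n → E, ContDiff ℝ 1 (fun y => η y w) := fun w =>
    (ContinuousAlternatingMap.apply ℝ E F w).contDiff.comp hη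
  have hcs : ∀ w : Fin n → E, HasCompactSupport (fun y => η y w) := fun w =>
    hc.comp_left (g := fun L : E [⋀^Fin n]→L[ℝ] F => L w) (by simp)
  have hint : ∀ w : Fin n → E, ∀ u : E, Integrable (fun x => fderiv ℝ (fun y => η y w) x u) μ := by
    intro w u
    refine Continuous.integrable_of_hasCompactSupport
      (((hev w).continuous_fderiv one_ne_zero).clm_apply continuous_const) ?_
    exact ((hcs w).fderiv (𝕜 := ℝ)).comp_left (g := fun L : E →L[ℝ] F => L u) (by simp)
  simp_rw [h0]
  rw [integral_finsetSum]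
  · refine Finset.sum_eq_zero fun i _ => ?_
    rw [integral_smul, integral_fderiv_eq_zero μ (hev _) (hcs _), smul_zero]
  · intro i _
    exact (hint _ _).smul _

end Flat

/-- The exterior product of a covector and an alternating map. -/
def wedge1 {n : ℕ} (l : E →L[ℝ] ℝ) (a : E [⋀^Fin n]→L[ℝ] F) : E [⋀^Fin (n + 1)]→L[ℝ] F :=
  ContinuousAlternatingMap.alternatizeUncurryFin (l.smulRight a)

theorem wedge1_apply {n : ℕ} (l : E →L[ℝ] ℝ) (a : E [⋀^Fin n]→L[ℝ] F) (v : Fin (n + 1) → E) :
    wedge1 l a v = ∑ i : Fin (n + 1), (-1) ^ i.val • l (v i) • a (i.removeNth v) := by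
  simp [wedge1, ContinuousAlternatingMap.alternatizeUncurryFin_apply]

theorem wedge1_add_left {n : ℕ} (l l' : E →L[ℝ] ℝ) (a : E [⋀^Fin n]→L[ℝ] F) :
    wedge1 (l + l') a = wedge1 l a + wedge1 l' a := by
  ext v; simp [wedge1_apply, add_smul, Finset.sum_add_distrib]

@[simp] theorem wedge1_zero_left {n : ℕ} (a : E [⋀^Fin n]→L[ℝ] F) :
    wedge1 (0 : E →L[ℝ] ℝ) a = 0 := by
  ext v; simp [wedge1_apply]

@[simp] theorem wedge1_zero_right {n : ℕ} (l : E →L[ℝ] ℝ) :
    wedge1 l (0 : E [⋀^Fin n]→L[ℝ] F) = 0 := by
  ext v; simp [wedge1_apply]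

theorem wedge1_sum_left {n : ℕ} {ι : Type*} (s : Finset ι) (l : ι → E →L[ℝ] ℝ)
    (a : E [⋀^Fin n]→L[ℝ] F) : wedge1 (∑ i ∈ s, l i) a = ∑ i ∈ s, wedge1 (l i) a := by
  classical
  induction s using Finset.induction_on with
  | empty => simp
  | insert i s hi ih => rw [Finset.sum_insert hi, Finset.sum_insert hi, wedge1_add_left, ih]

/-- The wedge product is natural. -/
theorem wedge1_comp {E' : Type*} [NormedAddCommGroup E'] [NormedSpace ℝ E'] {n : ℕ}
    (l : E →L[ℝ] ℝ) (a : E [⋀^Fin n]→L[ℝ] F) (T : E' →L[ℝ] E) :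
    (wedge1 l a).compContinuousLinearMap T =
      wedge1 (l.comp T) (a.compContinuousLinearMap T) := by
  ext v
  simp only [ContinuousAlternatingMap.compContinuousLinearMap_apply, wedge1_apply,
    ContinuousLinearMap.comp_apply, Function.comp_apply]
  rfl

/-- The product rule for the exterior derivative. -/
theorem extDeriv_smul_fun {n : ℕ} {f : E → ℝ} {η : E → E [⋀^Fin n]→L[ℝ] F} {x : E}
    (hf : DifferentiableAt ℝ f x) (hη : DifferentiableAt ℝ η x) :
    extDeriv (fun y => f y • η y) x = f x • extDeriv η x + wedge1 (fderiv ℝ f x) (η x) := by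
  have h : fderiv ℝ (fun y => f y • η y) x = f x • fderiv ℝ η x + (fderiv ℝ f x).smulRight (η x) :=
    fderiv_fun_smul hf hη
  unfold extDeriv wedge1
  rw [h, ContinuousAlternatingMap.alternatizeUncurryFin_add,
    ContinuousAlternatingMap.alternatizeUncurryFin_smul]

end Vale.Agent.P267.H928.Int
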