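import Vale.Agent.P267.H928.Int.Form
import Mathlib.Geometry.Manifold.PartitionOfUnity
import Mathlib.LinearAlgebra.Determinant
import Mathlib.LinearAlgebra.Alternating.Basic
import Mathlib.Topology.Algebra.Module.Determinant

/-!
# Top degree forms, positively oriented atlases and the reference density

`b` is a basis of the model space. The coefficient of a form `a` of top degree in the chart `e` is
`cf b e a z = pull e.symm a z b`. The reference density `dens` is built from a partition of unity.
-/

open Module Topology Set Function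
open scoped ContDiff Manifold

noncomputable section

namespace Vale.Agent.P267.H928.Int

variable {E : Type*} [NormedAddCommGroup E] [NormedSpace ℝ E]
variable {F : Type*} [NormedAddCommGroup F] [NormedSpace ℝ F]
variable {n : ℕ}

/-- An alternating map of top degree is determined by its value on a basis. -/
theorem top_apply (b : Basis (Fin n) ℝ E) (a : E [⋀^Fin n]→L[ℝ] F) (v : Fin n → E) :
    a v = b.det v • a b := by
  classical
  let g : E [⋀^Fin n]→ₗ[ℝ] F :=
    { toFun := fun v => b.det v • a b
      map_update_add' := by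
        intro h v i x y
        obtain rfl : h = instDecidableEqFin n := Subsingleton.elim _ _
        have := b.det.map_update_add v i x y
        exact (congrArg (· • a b) this).trans (add_smul _ _ _)
      map_update_smul' := by
        intro h v i c x
        obtain rfl : h = instDecidableEqFin n := Subsingleton.elim _ _
        have := b.det.map_update_smul v i c x
        exact (congrArg (· • a b) this).trans (smul_assoc _ _ _)
      map_eq_zero_of_eq' := by
        intro v i j hv hij
        have := b.det.map_eq_zero_of_eq v hv hij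
        simp only [this, zero_smul] }
  have hg : (a : E [⋀^Fin n]→L[ℝ] F).toAlternatingMap = g := by
    refine Basis.ext_alternating b fun w hw => ?_
    have hbij : Function.Bijective w := Finite.injective_iff_bijective.mp hw
    let σ : Equiv.Perm (Fin n) := Equiv.ofBijective w hbij
    have h1 : (a : E [⋀^Fin n]→L[ℝ] F).toAlternatingMap (fun i => b (w i)) =
        Equiv.Perm.sign σ • a b := by
      have := (a.toAlternatingMap).map_perm b σ
      exact this
    have h2 : b.det (fun i => b (w i)) = Equiv.Perm.sign σ • (1 : ℝ) := by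
      have := b.det.map_perm b σ
      rw [b.det_self] at this
      exact this
    rw [h1]
    change _ = b.det (fun i => b (w i)) • a b
    rw [h2]
    rcases Int.units_eq_one_or (Equiv.Perm.sign σ) with h | h <;> simp [h]
  have := congrArg (fun f : E [⋀^Fin n]→ₗ[ℝ] F => f v) hg
  exact this

theorem top_comp (b : Basis (Fin n) ℝ E) (a : E [⋀^Fin n]→L[ℝ] F) (T : E →L[ℝ] E) :
    (a.compContinuousLinearMap T) b = T.det • a b := by
  have h1 : (a.compContinuousLinearMap T) b = a (T ∘ b) := rfl
  rw [h1, top_apply b a (T ∘ b)]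
  have h2 := b.det_comp (T : E →ₗ[ℝ] E) b
  rw [b.det_self, mul_one] at h2
  have h3 : b.det (T ∘ b) = LinearMap.det (T : E →ₗ[ℝ] E) := h2
  rw [h3]

theorem top_eq_zero (b : Basis (Fin n) ℝ E) {a : E [⋀^Fin n]→L[ℝ] F} (h : a b = 0) : a = 0 := by
  ext v; rw [top_apply b a v, h, smul_zero]; rfl

variable {M : Type*} [TopologicalSpace M] [ChartedSpace E M]

/-- The coefficient of the top degree form `a` in the chart `e`. -/
def cf (b : Basis (Fin n) ℝ E) (e : OpenPartialHomeomorph M E) (a : Form E F n M) (z : E) : F :=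
  pull e.symm a z b

/-- The changes of charts have positive Jacobian determinant. -/
class PosAtlas (E M : Type*) [NormedAddCommGroup E] [NormedSpace ℝ E] [TopologicalSpace M]
    [ChartedSpace E M] : Prop where
  pos : ∀ e ∈ atlas E M, ∀ e' ∈ atlas E M, ∀ z ∈ e.target, e.symm z ∈ e'.source →
    0 < (fderiv ℝ (chg e e') z).det

theorem cf_chg [IsManifold 𝓘(ℝ, E) ∞ M] (b : Basis (Fin n) ℝ E) (a : Form E F n M)
    {e e' : OpenPartialHomeomorph M E} (he : e ∈ atlas E M) (he' : e' ∈ atlas E M) {z : E}
    (hz : z ∈ e.target) (hz' : e.symm z ∈ e'.source) :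
    cf b e a z = (fderiv ℝ (chg e e') z).det • cf b e' a (chg e e' z) := by
  rw [cf, pull_symm_eq a he he' hz hz', top_comp]; rfl

/-! ### the chosen partition of unity -/

variable (E M) in
/-- A countable smooth partition of unity subordinate to charts of the atlas. -/
structure Pou where
  ι : Type
  cnt : Countable ι
  e : ι → OpenPartialHomeomorph M E
  mem : ∀ i, e i ∈ atlas E M
  ρ : ι → M → ℝ
  smooth : ∀ i, ContMDiff 𝓘(ℝ, E) 𝓘(ℝ) ∞ (ρ i)
  nonneg : ∀ i x, 0 ≤ ρ i x
  locFin : LocallyFinite fun i => support (ρ i)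
  sum_one : ∀ x, ∑ᶠ i, ρ i x = 1
  sub : ∀ i, tsupport (ρ i) ⊆ (e i).source

theorem exists_pou [FiniteDimensional ℝ E] [IsManifold 𝓘(ℝ, E) ∞ M] [T2Space M]
    [SigmaCompactSpace M] : Nonempty (Pou E M) := by
  classical
  obtain ⟨s, hs, hU⟩ := countable_cover_nhds_of_sigmaCompact
    (fun x : M => chart_source_mem_nhds E x)
  have : Countable s := hs
  by_cases hne : s.Nonempty
  · obtain ⟨f, hf⟩ := hs.exists_eq_range hne
    obtain ⟨ρ, hρ⟩ := SmoothPartitionOfUnity.exists_isSubordinate (M := M) 𝓘(ℝ, E)
      (s := univ) isClosed_univ (fun i : ℕ => (chartAt E (f i)).source)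
      (fun i => (chartAt E (f i)).open_source) (by
        intro x _
        have : x ∈ ⋃ y ∈ s, (chartAt E y).source := hU ▸ mem_univ x
        simp only [mem_iUnion] at this ⊢
        obtain ⟨y, hy, hx⟩ := this
        rw [hf] at hy
        obtain ⟨i, rfl⟩ := hy
        exact ⟨i, hx⟩)
    exact ⟨{ ι := ℕ, cnt := inferInstance, e := fun i => chartAt E (f i)
             mem := fun i => chart_mem_atlas E (f i)
             ρ := fun i => ρ i
             smooth := fun i => (ρ i).contMDiff
             nonneg := fun i x => ρ.nonneg i x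
             locFin := ρ.locallyFinite
             sum_one := fun x => ρ.sum_eq_one (mem_univ x)
             sub := fun i => hρ i }⟩
  · rw [Set.not_nonempty_iff_eq_empty] at hne
    have hempty : ∀ x : M, False := by
      intro x
      have : x ∈ ⋃ y ∈ s, (chartAt E y).source := hU ▸ mem_univ x
      simp [hne] at this
    exact ⟨{ ι := Empty, cnt := inferInstance, e := fun i => i.elim
             mem := fun i => i.elim
             ρ := fun i => i.elim
             smooth := fun i => i.elim
             nonneg := fun i => i.elim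
             locFin := fun x => (hempty x).elim
             sum_one := fun x => (hempty x).elim
             sub := fun i => i.elim }⟩

namespace Pou

variable (P : Pou E M)

/-- The density of the reference measure in the chart `e`. -/
def w (e : OpenPartialHomeomorph M E) (z : E) : ℝ :=
  ∑ᶠ i, P.ρ i (e.symm z) * (fderiv ℝ (chg e (P.e i)) z).det

theorem finite_support (x : M) : {i | P.ρ i x ≠ 0}.Finite := P.locFin.point_finite x

theorem exists_finset (x : M) : ∃ s : Finset P.ι, ∀ᶠ y in 𝓝 x, ∀ i ∉ s, P.ρ i y = 0 := by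
  obtain ⟨t, ht, hfin⟩ := P.locFin x
  refine ⟨hfin.toFinset, ?_⟩
  filter_upwards [ht] with y hy i hi
  by_contra h
  exact hi (hfin.mem_toFinset.mpr ⟨y, h, hy⟩)

section

variable [FiniteDimensional ℝ E] [IsManifold 𝓘(ℝ, E) ∞ M]

omit [FiniteDimensional ℝ E] in
theorem contDiffAt_comp_symm {r : M → ℝ} (hr : ContMDiff 𝓘(ℝ, E) 𝓘(ℝ) ∞ r)
    {e : OpenPartialHomeomorph M E} (he : e ∈ atlas E M) {z : E} (hz : z ∈ e.target) :
    ContDiffAt ℝ ∞ (fun y => r (e.symm y)) z := by
  have h1 : ContMDiffAt 𝓘(ℝ, E) 𝓘(ℝ, E) ∞ e.symm z :=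
    (contMDiffOn_symm_of_mem_maximalAtlas (IsManifold.subset_maximalAtlas he)).contMDiffAt
      (e.open_target.mem_nhds hz)
  exact ((hr _).comp z h1).contDiffAt

theorem contDiffAt_term {e : OpenPartialHomeomorph M E} (he : e ∈ atlas E M) {z : E}
    (hz : z ∈ e.target) (i : P.ι) :
    ContDiffAt ℝ ∞ (fun y => P.ρ i (e.symm y) * (fderiv ℝ (chg e (P.e i)) y).det) z := by
  by_cases hx : e.symm z ∈ tsupport (P.ρ i)
  · have h1 := contDiffAt_chg he (P.mem i) hz (P.sub i hx)
    have h2 : ContDiffAt ℝ ∞ (fderiv ℝ (chg e (P.e i))) z := h1.fderiv_right (by simp)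
    have h3 : ContDiff ℝ ∞ (ContinuousLinearMap.det : (E →L[ℝ] E) → ℝ) := by
      let B := Module.finBasis ℝ E
      have : (ContinuousLinearMap.det : (E →L[ℝ] E) → ℝ) = fun L : E →L[ℝ] E =>
          Matrix.det (LinearMap.toMatrix B B (L : E →ₗ[ℝ] E)) := by
        funext L
        rw [LinearMap.det_toMatrix]
      rw [this]
      simp only [Matrix.det_apply]
      refine ContDiff.sum fun σ _ => ?_
      have : ContDiff ℝ ∞ fun L : E →L[ℝ] E =>
          ∏ j, (LinearMap.toMatrix B B (L : E →ₗ[ℝ] E)) (σ j) j := by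
        refine contDiff_prod fun j _ => ?_
        have : IsBoundedLinearMap ℝ fun L : E →L[ℝ] E =>
            (LinearMap.toMatrix B B (L : E →ₗ[ℝ] E)) (σ j) j := by
          let l : (E →L[ℝ] E) →ₗ[ℝ] ℝ :=
            { toFun := fun L => (LinearMap.toMatrix B B (L : E →ₗ[ℝ] E)) (σ j) j
              map_add' := fun L L' => by simp [LinearMap.toMatrix_apply]
              map_smul' := fun c L => by simp [LinearMap.toMatrix_apply] }
          exact (LinearMap.toContinuousLinearMap l).isBoundedLinearMap
        exact this.contDiff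
      have h5 : (fun L : E →L[ℝ] E => Equiv.Perm.sign σ •
          ∏ j, (LinearMap.toMatrix B B (L : E →ₗ[ℝ] E)) (σ j) j) = fun L : E →L[ℝ] E =>
          (((Equiv.Perm.sign σ : ℤˣ) : ℤ) : ℝ) *
          ∏ j, (LinearMap.toMatrix B B (L : E →ₗ[ℝ] E)) (σ j) j := by
        funext L
        rw [Units.smul_def, zsmul_eq_mul]
      rw [h5]
      exact contDiff_const.mul this
    exact (contDiffAt_comp_symm (P.smooth i) he hz).mul (h3.contDiffAt.comp z h2)
  · have h1 : ∀ᶠ y in 𝓝 z, P.ρ i (e.symm y) = 0 := by
      have h2 : ∀ᶠ x in 𝓝 (e.symm z), x ∉ tsupport (P.ρ i) :=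
        (isClosed_tsupport _).isOpen_compl.mem_nhds hx
      filter_upwards [(e.continuousAt_symm hz).eventually h2] with y hy
      exact image_eq_zero_of_notMem_tsupport hy
    refine (contDiffAt_const (c := (0 : ℝ))).congr_of_eventuallyEq ?_
    filter_upwards [h1] with y hy
    rw [hy, zero_mul]

omit [FiniteDimensional ℝ E] [IsManifold 𝓘(ℝ, E) ∞ M] in
theorem w_eventually {e : OpenPartialHomeomorph M E} {z : E} (hz : z ∈ e.target) :
    ∃ s : Finset P.ι, ∀ᶠ y in 𝓝 z,
      (∀ i ∉ s, P.ρ i (e.symm y) = 0) ∧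
      P.w e y = ∑ i ∈ s, P.ρ i (e.symm y) * (fderiv ℝ (chg e (P.e i)) y).det := by
  obtain ⟨s, hs⟩ := P.exists_finset (e.symm z)
  refine ⟨s, ?_⟩
  filter_upwards [(e.continuousAt_symm hz).eventually hs] with y hy
  refine ⟨hy, ?_⟩
  rw [w, finsum_eq_sum_of_support_subset]
  intro i hi
  by_contra h
  exact hi (by simp [hy i h])

theorem contDiffOn_w {e : OpenPartialHomeomorph M E} (he : e ∈ atlas E M) :
    ContDiffOn ℝ ∞ (P.w e) e.target := by
  intro z hz
  obtain ⟨s, hs⟩ := P.w_eventually hz
  refine ContDiffAt.contDiffWithinAt ?_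
  refine ContDiffAt.congr_of_eventuallyEq (f := fun y => ∑ i ∈ s, P.ρ i (e.symm y) *
    (fderiv ℝ (chg e (P.e i)) y).det) ?_ (hs.mono fun y hy => hy.2)
  exact ContDiffAt.sum fun i _ => P.contDiffAt_term he hz i

omit [FiniteDimensional ℝ E] [IsManifold 𝓘(ℝ, E) ∞ M] in
theorem w_pos [PosAtlas E M] {e : OpenPartialHomeomorph M E} (he : e ∈ atlas E M) {z : E}
    (hz : z ∈ e.target) : 0 < P.w e z := by
  have hnn : ∀ i, 0 ≤ P.ρ i (e.symm z) * (fderiv ℝ (chg e (P.e i)) z).det := by
    intro i
    by_cases h : P.ρ i (e.symm z) = 0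
    · simp [h]
    · have h1 : e.symm z ∈ (P.e i).source := P.sub i (subset_tsupport _ h)
      exact mul_nonneg (P.nonneg i _) (PosAtlas.pos e he _ (P.mem i) z hz h1).le
  have hex : ∃ i, P.ρ i (e.symm z) ≠ 0 := by
    by_contra h
    push Not at h
    have := P.sum_one (e.symm z)
    simp [h] at this
  obtain ⟨i, hi⟩ := hex
  have h1 : e.symm z ∈ (P.e i).source := P.sub i (subset_tsupport _ hi)
  have hpos : 0 < P.ρ i (e.symm z) * (fderiv ℝ (chg e (P.e i)) z).det :=
    mul_pos (lt_of_le_of_ne (P.nonneg i _) (Ne.symm hi)) (PosAtlas.pos e he _ (P.mem i) z hz h1)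
  have hfin : (support fun i => P.ρ i (e.symm z) * (fderiv ℝ (chg e (P.e i)) z).det).Finite := by
    refine (P.finite_support (e.symm z)).subset fun j hj => ?_
    intro h
    exact hj (by simp [h])
  refine lt_of_lt_of_le hpos ?_
  rw [w]
  exact single_le_finsum i hfin hnn

omit [FiniteDimensional ℝ E] in
/-- Change of charts for the reference density. -/
theorem w_chg {e e' : OpenPartialHomeomorph M E} (he : e ∈ atlas E M) (he' : e' ∈ atlas E M) {z : E}
    (hz : z ∈ e.target) (hz' : e.symm z ∈ e'.source) :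
    P.w e z = (fderiv ℝ (chg e e') z).det * P.w e' (chg e e' z) := by
  rw [w, w, mul_finsum' _ _ (by
    refine (P.finite_support (e.symm z)).subset fun j hj => ?_
    intro h
    apply hj
    have : e'.symm (chg e e' z) = e.symm z := e'.left_inv hz'
    simp [this, h])]
  refine finsum_congr fun i => ?_
  have hx : e'.symm (chg e e' z) = e.symm z := e'.left_inv hz'
  rw [hx]
  by_cases h : P.ρ i (e.symm z) = 0
  · simp [h]
  have h1 : e.symm z ∈ (P.e i).source := P.sub i (subset_tsupport _ h)
  have h2 : (chg e (P.e i) : E → E) =ᶠ[𝓝 z] fun y => chg e' (P.e i) (chg e e' y) := by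
    filter_upwards [symm_eventuallyEq hz hz'] with y hy
    simp only [chg] at hy ⊢
    rw [← hy]
  have h3 : fderiv ℝ (chg e (P.e i)) z =
      (fderiv ℝ (chg e' (P.e i)) (chg e e' z)).comp (fderiv ℝ (chg e e') z) := by
    rw [h2.fderiv_eq (𝕜 := ℝ)]
    refine fderiv_fun_comp z ?_ ?_
    · refine (contDiffAt_chg he' (P.mem i) (e'.map_source hz') ?_).differentiableAt (by simp)
      rw [hx]; exact h1
    · exact (contDiffAt_chg he he' hz hz').differentiableAt (by simp)
  have h4 : (fderiv ℝ (chg e (P.e i)) z).det =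
      (fderiv ℝ (chg e' (P.e i)) (chg e e' z)).det * (fderiv ℝ (chg e e') z).det := by
    rw [h3]
    exact LinearMap.det_comp (fderiv ℝ (chg e' (P.e i)) (chg e e' z) : E →ₗ[ℝ] E)
      (fderiv ℝ (chg e e') z : E →ₗ[ℝ] E)
  rw [h4]; ring

end

end Pou

end Vale.Agent.P267.H928.Int
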