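import Vale.Agent.P267.H399.Calc2
import Vale.Agent.P267.H928.Int.FL

/-!
# Stokes' formula on complex surfaces in the language of helper399
-/

set_option linter.unusedSectionVars false

open Module Topology Set Function MeasureTheory Measure Filter
open scoped ContDiff Manifold ENNReal ComplexConjugate

noncomputable section

namespace Vale.Agent.P267.FL

open Vale.Agent.P267.H928.Int (chg IsDens DCont DSupp Pou PosAtlas)
open Vale.Agent.P267.H928

variable {X : Type*} [TopologicalSpace X] [ChartedSpace C2 X]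
variable {V : Type*} [NormedAddCommGroup V] [NormedSpace ℂ V]

/-! ### flat formulas -/

theorem integral_dzb_eq_zero {g : C2 → V} (hg : ContDiff ℝ 1 g) (hc : HasCompactSupport g)
    (j : Fin 2) : ∫ z, dzb j g z = 0 := by
  have hi : ∀ v : C2, Integrable (fun z => fderiv ℝ g z v) := by
    intro v
    refine Continuous.integrable_of_hasCompactSupport
      ((hg.continuous_fderiv one_ne_zero).clm_apply continuous_const) ?_
    exact (hc.fderiv (𝕜 := ℝ)).comp_left (g := fun L : C2 →L[ℝ] V => L v) (by simp)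
  have hi2 : ∀ v : C2, Integrable (fun z => Complex.I • fderiv ℝ g z v) :=
    fun v => (hi v).smul Complex.I
  simp only [dzb]
  rw [integral_smul, integral_add (hi _) (hi2 _), integral_smul,
    Int.integral_fderiv_eq_zero volume hg hc, Int.integral_fderiv_eq_zero volume hg hc]
  simp

theorem integral_dz_eq_zero {g : C2 → V} (hg : ContDiff ℝ 1 g) (hc : HasCompactSupport g)
    (j : Fin 2) : ∫ z, dz j g z = 0 := by
  have hi : ∀ v : C2, Integrable (fun z => fderiv ℝ g z v) := by
    intro v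
    refine Continuous.integrable_of_hasCompactSupport
      ((hg.continuous_fderiv one_ne_zero).clm_apply continuous_const) ?_
    exact (hc.fderiv (𝕜 := ℝ)).comp_left (g := fun L : C2 →L[ℝ] V => L v) (by simp)
  have hi2 : ∀ v : C2, Integrable (fun z => Complex.I • fderiv ℝ g z v) :=
    fun v => (hi v).smul Complex.I
  simp only [dz]
  rw [integral_smul, integral_sub (hi _) (hi2 _), integral_smul,
    Int.integral_fderiv_eq_zero volume hg hc, Int.integral_fderiv_eq_zero volume hg hc]
  simp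

theorem integrable_dzb {g : C2 → V} (hg : ContDiff ℝ 1 g) (hc : HasCompactSupport g)
    (j : Fin 2) : Integrable (fun z => dzb j g z) := by
  have hi : ∀ v : C2, Integrable (fun z => fderiv ℝ g z v) := by
    intro v
    refine Continuous.integrable_of_hasCompactSupport
      ((hg.continuous_fderiv one_ne_zero).clm_apply continuous_const) ?_
    exact (hc.fderiv (𝕜 := ℝ)).comp_left (g := fun L : C2 →L[ℝ] V => L v) (by simp)
  exact ((hi _).add ((hi _).smul Complex.I)).smul _

section

variable [T2Space X]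

/-- A function in a chart, `C¹` and with compact support in the chart, extended by zero. -/
theorem ext_by_zero {e : Ch X} {g : C2 → V} (hg : ContDiffOn ℝ 1 g e.target) {K : Set X}
    (hK : IsCompact K) (hKe : K ⊆ e.source) (h0 : ∀ z ∈ e.target, e.symm z ∉ K → g z = 0) :
    ContDiff ℝ 1 (e.target.indicator g) ∧ HasCompactSupport (e.target.indicator g) ∧
      (∀ z ∈ e.target, e.target.indicator g =ᶠ[𝓝 z] g) ∧
      ∀ z ∉ e.target, e.target.indicator g =ᶠ[𝓝 z] fun _ => 0 := by
  set L : Set C2 := e '' K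
  have hL : IsCompact L := hK.image_of_continuousOn (e.continuousOn.mono hKe)
  have hLt : L ⊆ e.target := by rintro _ ⟨x, hx, rfl⟩; exact e.map_source (hKe hx)
  have hz0 : ∀ z ∉ L, e.target.indicator g z = 0 := by
    intro z hz
    by_cases h : z ∈ e.target
    · have : e.symm z ∉ K := fun hx => hz ⟨_, hx, e.right_inv h⟩
      rw [indicator_of_mem h, h0 z h this]
    · rw [indicator_of_notMem h]
  have hev : ∀ z ∈ e.target, e.target.indicator g =ᶠ[𝓝 z] g := by
    intro z hz
    filter_upwards [e.open_target.mem_nhds hz] with y hy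
    rw [indicator_of_mem hy]
  have hev0 : ∀ z ∉ L, e.target.indicator g =ᶠ[𝓝 z] fun _ => 0 := by
    intro z hz
    filter_upwards [hL.isClosed.isOpen_compl.mem_nhds hz] with y hy
    exact hz0 y hy
  refine ⟨?_, HasCompactSupport.intro hL hz0, hev, fun z hz => hev0 z fun h => hz (hLt h)⟩
  rw [contDiff_iff_contDiffAt]
  intro z
  by_cases hz : z ∈ L
  · exact (hg.contDiffAt (e.open_target.mem_nhds (hLt hz))).congr_of_eventuallyEq
      (hev z (hLt hz))
  · exact contDiffAt_const.congr_of_eventuallyEq (hev0 z hz)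

theorem setIntegral_dzb_eq_zero {e : Ch X} {g : C2 → V} (hg : ContDiffOn ℝ 1 g e.target)
    {K : Set X} (hK : IsCompact K) (hKe : K ⊆ e.source)
    (h0 : ∀ z ∈ e.target, e.symm z ∉ K → g z = 0) (j : Fin 2) :
    IntegrableOn (fun z => dzb j g z) e.target ∧ ∫ z in e.target, dzb j g z = 0 := by
  obtain ⟨h1, h2, h3, h4⟩ := ext_by_zero hg hK hKe h0
  have h5 : EqOn (fun z => dzb j g z) (fun z => dzb j (e.target.indicator g) z) e.target :=
    fun z hz => (dzb_congr (h3 z hz) j).symm
  have h6 := integrable_dzb h1 h2 j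
  refine ⟨(h6.integrableOn).congr_fun h5.symm e.open_target.measurableSet, ?_⟩
  rw [setIntegral_congr_fun e.open_target.measurableSet h5,
    setIntegral_eq_integral_of_forall_compl_eq_zero, integral_dzb_eq_zero h1 h2]
  intro z hz
  rw [dzb_congr (h4 z hz)]
  exact dzb_const _ _ _

end

/-! ### the global formula -/

section Glob

variable [IsManifold 𝓘(ℂ, C2) ω X] [T2Space X]

theorem intV_dbar1_chart [SigmaCompactSpace X] {e : Ch X} (he : e ∈ atlas C2 X)
    {c : X → Fin 2 → V} (h : Reg1 1 1 c) {K : Set X} (hK : IsCompact K) (hKe : K ⊆ e.source)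
    (h0 : ∀ x ∉ K, c x = 0) (hint : IntegrableX (dbar1 1 c))
    (hz : ∀ x ∉ e.source, dbar1 1 c x = 0) : intV (dbar1 1 c) = 0 := by
  rw [intV_chart he hint hz]
  have hd : ∀ z ∈ e.target, DifferentiableAt ℝ (loc1 1 e c) z := fun z hz =>
    (h.contDiffAt he hz).differentiableAt one_ne_zero
  have hg : ∀ j, ContDiffOn ℝ 1 (fun y => loc1 1 e c y j) e.target := fun j =>
    contDiffOn_pi.1 (h e he) j
  have hg0 : ∀ j, ∀ z ∈ e.target, e.symm z ∉ K → loc1 1 e c z j = 0 := by
    intro j z _ hx
    simp [loc1, h0 _ hx]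
  obtain ⟨i1, e1⟩ := setIntegral_dzb_eq_zero (hg 1) hK hKe (hg0 1) 0
  obtain ⟨i2, e2⟩ := setIntegral_dzb_eq_zero (hg 0) hK hKe (hg0 0) 1
  have h1 : ∫ z in e.target, loc2 1 e (dbar1 1 c) z =
      ∫ z in e.target, (dzb 0 (fun y => loc1 1 e c y 1) z - dzb 1 (fun y => loc1 1 e c y 0) z) :=
    setIntegral_congr_fun e.open_target.measurableSet fun z hz => loc2_dbar1 he hz (hd z hz)
  rw [h1, integral_sub i1 i2, e1, e2, sub_zero, smul_zero]

theorem reg0_rho (P : Pou C2 X) (i : P.ι) : Reg0 ∞ 0 (fun x => (P.ρ i x : ℂ)) := by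
  haveI : IsManifold 𝓘(ℝ, C2) ∞ X := Int.isManifold_real
  intro e he z hz
  have h1 : ContDiffAt ℝ ∞ (fun y => P.ρ i (e.symm y)) z :=
    Int.Pou.contDiffAt_comp_symm (P.smooth i) he hz
  have h2 : loc0 0 e (fun x => (P.ρ i x : ℂ)) = fun y => ((P.ρ i (e.symm y) : ℝ) : ℂ) := by
    rw [LB.loc0_zero]; rfl
  rw [h2]
  exact (Complex.ofRealCLM.contDiff.contDiffAt.comp z h1).contDiffWithinAt

theorem Pou.exists_finset_one (P : Pou C2 X) {K : Set X} (hK : IsCompact K) :
    ∃ S : Finset P.ι, ∀ x ∈ K, ∑ i ∈ S, P.ρ i x = 1 := by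
  classical
  have hfin : {i | (support (P.ρ i) ∩ K).Nonempty}.Finite :=
    P.locFin.finite_nonempty_inter_compact hK
  refine ⟨hfin.toFinset, fun x hx => ?_⟩
  rw [← P.sum_one x, finsum_eq_sum_of_support_subset]
  intro i hi
  simp only [Finite.coe_toFinset, mem_setOf_eq]
  exact ⟨x, hi, hx⟩

theorem dbar1_eq_zero_of_notMem {κ : ℤ} {c : X → Fin 2 → V} {K : Set X} (hK : IsClosed K)
    (h0 : ∀ x ∉ K, c x = 0) {x : X} (hx : x ∉ K) : dbar1 κ c x = 0 := by
  have h1 : c =ᶠ[𝓝 x] fun _ => (0 : Fin 2 → V) := by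
    filter_upwards [hK.isOpen_compl.mem_nhds hx] with y hy
    exact h0 y hy
  rw [dbar1_congr h1]
  have h2 := loc1_zero_fun (V := V) (κ := κ) (e := chartAt C2 x)
  have h3 : ∀ j, (fun z => loc1 κ (chartAt C2 x) (fun _ => (0 : Fin 2 → V)) z j) =
      fun _ => (0 : V) := fun j => by
    funext z
    simp [loc1]
  rw [dbar1, h3, h3, dzb_const, dzb_const, sub_zero]

/-- **Stokes' formula**: the integral of `∂̄ c` vanishes, `c` a `(2,1)`-form of class `C¹` with
compact support. -/
theorem intV_dbar1 [SigmaCompactSpace X] {c : X → Fin 2 → V} (h : Reg1 1 1 c)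
    (hc : HasCompactSupport c) : intV (dbar1 1 c) = 0 := by
  classical
  set P := pou X
  have hK : IsCompact (tsupport c) := hc
  obtain ⟨S, hS⟩ := Pou.exists_finset_one P hK
  let ci : P.ι → X → Fin 2 → V := fun i x j => (P.ρ i x : ℂ) • c x j
  have h0 : ∀ x ∉ tsupport c, c x = 0 := fun x hx => image_eq_zero_of_notMem_tsupport hx
  have hci : ∀ i x, At1 1 1 (ci i) x := fun i x =>
    At1.smul (((reg0_rho P i).at x).of_le (by simp)) (h.at x)
  have hKi : ∀ i, IsCompact (tsupport (P.ρ i) ∩ tsupport c) := fun i =>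
    hK.inter_left (isClosed_tsupport _)
  have hci0 : ∀ i, ∀ x ∉ tsupport (P.ρ i) ∩ tsupport c, ci i x = 0 := by
    intro i x hx
    by_cases h1 : x ∈ tsupport c
    · have h2 : x ∉ tsupport (P.ρ i) := fun h2 => hx ⟨h2, h1⟩
      funext j
      simp only [ci, image_eq_zero_of_notMem_tsupport h2]
      simp
    · funext j
      simp only [ci, h0 x h1]
      simp
  have hreg : ∀ i, Reg1 1 1 (ci i) := fun i => reg1_iff_at.2 (hci i)
  have hdreg : ∀ i, Reg2 0 1 (dbar1 1 (ci i)) := fun i => (hreg i).dbar (by simp)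
  have hdc : ∀ i, HasCompactSupport (dbar1 1 (ci i)) := fun i =>
    HasCompactSupport.intro (hKi i) fun x hx =>
      dbar1_eq_zero_of_notMem (hKi i).isClosed (hci0 i) hx
  have hint : ∀ i, IntegrableX (dbar1 1 (ci i)) := fun i => integrableX_of_reg (hdreg i) (hdc i)
  have hsum : c = fun x => ∑ i ∈ S, ci i x := by
    funext x j
    rw [Finset.sum_apply]
    by_cases hx : x ∈ tsupport c
    · have h1 : ∑ i ∈ S, (P.ρ i x : ℂ) = 1 := by
        rw [← Complex.ofReal_sum, hS x hx, Complex.ofReal_one]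
      simp only [ci]
      rw [← Finset.sum_smul, h1, one_smul]
    · simp only [ci, h0 x hx]
      simp
  have hd : dbar1 1 c = ∑ i ∈ S, dbar1 1 (ci i) := by
    funext x
    rw [Finset.sum_apply]
    conv_lhs => rw [hsum]
    exact dbar1_sum fun i _ => hci i x
  rw [hd, intV_sum S fun i _ => hint i]
  refine Finset.sum_eq_zero fun i _ => ?_
  refine intV_dbar1_chart (P.mem i) (hreg i) (hKi i) (fun x hx => P.sub i hx.1) (hci0 i) (hint i)
    fun x hx => dbar1_eq_zero_of_notMem (hKi i).isClosed (hci0 i) fun h2 => hx (P.sub i h2.1)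

/-- Stokes' formula for `intX`. -/
theorem intX_dbar1 [SigmaCompactSpace X] {c : X → Fin 2 → ℂ} (h : Reg1 1 1 c)
    (hc : HasCompactSupport c) : intX (dbar1 1 c) = 0 := by
  have h1 : HasCompactSupport (dbar1 1 c) := HasCompactSupport.intro hc fun x hx =>
    dbar1_eq_zero_of_notMem (isClosed_tsupport _)
      (fun y hy => image_eq_zero_of_notMem_tsupport hy) hx
  have h2 : Reg2 0 1 (dbar1 1 c) := h.dbar (by simp)
  rw [intX_eq_intV (integrableX_of_reg h2 h1) h1, intV_dbar1 h hc]

end Glob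

end Vale.Agent.P267.FL
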