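import Vale.Agent.P267.H928.Int.Flat
import Mathlib.Geometry.Manifold.MFDeriv.Atlas
import Mathlib.Geometry.Manifold.IsManifold.Basic

/-!
# Differential forms on a manifold and their expressions in charts

The manifold `M` is modelled on the real normed space `E`. A form is a family of alternating maps on
the tangent spaces, as in `Vale.Agent.P267.Statement`, with values in a normed space `F`. The
expression of the form `a` in the chart `e` is `pull e.symm a`.
-/

open Module Topology Set
open scoped ContDiff Manifold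

noncomputable section

namespace Vale.Agent.P267.H928.Int

variable {E : Type*} [NormedAddCommGroup E] [NormedSpace ℝ E]
variable {F : Type*} [NormedAddCommGroup F] [NormedSpace ℝ F]
variable {M : Type*} [TopologicalSpace M] [ChartedSpace E M]

/-- A (not necessarily smooth) `k`-form on `M` with values in `F`. -/
abbrev Form (E F : Type*) [NormedAddCommGroup E] [NormedSpace ℝ E] [NormedAddCommGroup F]
    [NormedSpace ℝ F] (k : ℕ) (M : Type*) [TopologicalSpace M] [ChartedSpace E M] :=
  ∀ x : M, TangentSpace 𝓘(ℝ, E) x [⋀^Fin k]→L[ℝ] F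

/-- The pullback of the form `a` by a map `f : E → M`. -/
def pull {k : ℕ} (f : E → M) (a : Form E F k M) : E → E [⋀^Fin k]→L[ℝ] F :=
  fun z => (a (f z)).compContinuousLinearMap (mfderiv 𝓘(ℝ, E) 𝓘(ℝ, E) f z)

/-- The derivative of `f : E → M` at `z`, as a linear map `E → E`. -/
def mfd (f : E → M) (z : E) : E →L[ℝ] E := mfderiv 𝓘(ℝ, E) 𝓘(ℝ, E) f z

/-- The value of a form at a point, as an alternating map on `E`. -/
def val {k : ℕ} (a : Form E F k M) (x : M) : E [⋀^Fin k]→L[ℝ] F := a x

theorem pull_eq {k : ℕ} (f : E → M) (a : Form E F k M) (z : E) :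
    pull f a z = (val a (f z)).compContinuousLinearMap (mfd f z) := rfl

@[simp] theorem pull_add {k : ℕ} (f : E → M) (a b : Form E F k M) (z : E) :
    pull f (a + b) z = pull f a z + pull f b z := by
  ext v; rfl

@[simp] theorem pull_zero {k : ℕ} (f : E → M) (z : E) : pull f (0 : Form E F k M) z = 0 := by
  ext v; rfl

theorem pull_of_eq_zero {k : ℕ} {f : E → M} {a : Form E F k M} {z : E} (h : a (f z) = 0) :
    pull f a z = 0 := by
  have h' : val a (f z) = 0 := h
  ext v; simp [pull_eq, h']

@[simp] theorem pull_neg {k : ℕ} (f : E → M) (a : Form E F k M) (z : E) :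
    pull f (-a) z = - pull f a z := by
  ext v; rfl

@[simp] theorem pull_sub {k : ℕ} (f : E → M) (a b : Form E F k M) (z : E) :
    pull f (a - b) z = pull f a z - pull f b z := by
  ext v; rfl

@[simp] theorem pull_smul {k : ℕ} (f : E → M) (c : ℝ) (a : Form E F k M) (z : E) :
    pull f (c • a) z = c • pull f a z := by
  ext v; rfl

theorem pull_sum {k : ℕ} {ι : Type*} (s : Finset ι) (f : E → M) (a : ι → Form E F k M) (z : E) :
    pull f (∑ i ∈ s, a i) z = ∑ i ∈ s, pull f (a i) z := by
  classical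
  induction s using Finset.induction_on with
  | empty => simp
  | insert i s hi ih => rw [Finset.sum_insert hi, Finset.sum_insert hi, pull_add, ih]

/-- The product of a function and a form. -/
def fsmul {k : ℕ} (r : M → ℝ) (a : Form E F k M) : Form E F k M := fun x => r x • a x

@[simp] theorem fsmul_apply {k : ℕ} (r : M → ℝ) (a : Form E F k M) (x : M) :
    fsmul r a x = r x • a x := rfl

@[simp] theorem pull_fsmul {k : ℕ} (f : E → M) (r : M → ℝ) (a : Form E F k M) (z : E) :
    pull f (fsmul r a) z = r (f z) • pull f a z := by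
  ext v; rfl

/-- The coordinate change from the chart `e` to the chart `e'`. -/
abbrev chg (e e' : OpenPartialHomeomorph M E) : E → E := fun z => e' (e.symm z)

section Charts

variable [IsManifold 𝓘(ℝ, E) ∞ M]

theorem contDiffAt_chg {e e' : OpenPartialHomeomorph M E} (he : e ∈ atlas E M)
    (he' : e' ∈ atlas E M) {z : E} (hz : z ∈ e.target) (hz' : e.symm z ∈ e'.source) :
    ContDiffAt ℝ ∞ (chg e e') z := by
  have h := (contDiffGroupoid ∞ 𝓘(ℝ, E)).compatible he he'
  rw [contDiffGroupoid, mem_groupoid_of_pregroupoid] at h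
  have h1 := h.1
  simp only [contDiffPregroupoid, modelWithCornersSelf_coe, modelWithCornersSelf_coe_symm,
    Function.comp_id, Function.id_comp, preimage_id, range_id, inter_univ] at h1
  have hz2 : z ∈ (e.symm ≫ₕ e').source := by
    simp only [OpenPartialHomeomorph.trans_source, OpenPartialHomeomorph.symm_source, mem_inter_iff,
      mem_preimage]
    exact ⟨hz, hz'⟩
  have h3 : ContDiffOn ℝ ∞ (e.symm ≫ₕ e') (e.symm ≫ₕ e').source := h1
  exact (h3 z hz2).contDiffAt ((e.symm ≫ₕ e').open_source.mem_nhds hz2)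

theorem mdiffAt_symm {e : OpenPartialHomeomorph M E} (he : e ∈ atlas E M) {z : E}
    (hz : z ∈ e.target) : MDifferentiableAt 𝓘(ℝ, E) 𝓘(ℝ, E) e.symm z :=
  haveI : IsManifold 𝓘(ℝ, E) 1 M := IsManifold.of_le (n := ∞) (by simp)
  mdifferentiableAt_atlas_symm he hz

theorem mdiffAt_chart {e : OpenPartialHomeomorph M E} (he : e ∈ atlas E M) {x : M}
    (hx : x ∈ e.source) : MDifferentiableAt 𝓘(ℝ, E) 𝓘(ℝ, E) e x :=
  haveI : IsManifold 𝓘(ℝ, E) 1 M := IsManifold.of_le (n := ∞) (by simp)
  mdifferentiableAt_atlas he hx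

omit [NormedSpace ℝ E] [ChartedSpace E M] [IsManifold 𝓘(ℝ, E) ∞ M] in
/-- Near `z`, `e.symm = e'.symm ∘ chg e e'`. -/
theorem symm_eventuallyEq {e e' : OpenPartialHomeomorph M E} {z : E} (hz : z ∈ e.target)
    (hz' : e.symm z ∈ e'.source) : e.symm =ᶠ[𝓝 z] fun w => e'.symm (chg e e' w) := by
  have h1 : ∀ᶠ w in 𝓝 z, e.symm w ∈ e'.source :=
    (e.continuousAt_symm hz).eventually (e'.open_source.mem_nhds hz')
  filter_upwards [h1] with w hw
  exact (e'.left_inv hw).symm

theorem mfd_symm_eq {e e' : OpenPartialHomeomorph M E} (he : e ∈ atlas E M)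
    (he' : e' ∈ atlas E M) {z : E} (hz : z ∈ e.target) (hz' : e.symm z ∈ e'.source) :
    mfd e.symm z = (mfd e'.symm (chg e e' z)).comp (fderiv ℝ (chg e e') z) := by
  have h1 := (symm_eventuallyEq hz hz').mfderiv_eq (I := 𝓘(ℝ, E)) (I' := 𝓘(ℝ, E))
  have h2 : MDifferentiableAt 𝓘(ℝ, E) 𝓘(ℝ, E) e'.symm (chg e e' z) :=
    mdiffAt_symm he' (e'.map_source hz')
  have h3 : MDifferentiableAt 𝓘(ℝ, E) 𝓘(ℝ, E) (chg e e') z :=
    ((contDiffAt_chg he he' hz hz').differentiableAt (by simp)).mdifferentiableAt
  have h4 := mfderiv_comp (I := 𝓘(ℝ, E)) (I' := 𝓘(ℝ, E)) (I'' := 𝓘(ℝ, E)) z h2 h3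
  rw [mfderiv_eq_fderiv] at h4
  exact h1.trans h4

/-- Change of charts for forms. -/
theorem pull_symm_eq {k : ℕ} (a : Form E F k M) {e e' : OpenPartialHomeomorph M E}
    (he : e ∈ atlas E M) (he' : e' ∈ atlas E M) {z : E} (hz : z ∈ e.target)
    (hz' : e.symm z ∈ e'.source) :
    pull e.symm a z =
      (pull e'.symm a (chg e e' z)).compContinuousLinearMap (fderiv ℝ (chg e e') z) := by
  have hx : e'.symm (chg e e' z) = e.symm z := e'.left_inv hz'
  rw [pull_eq, pull_eq, mfd_symm_eq he he' hz hz', hx]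
  rfl

end Charts

/-- The form is smooth of class `C^r` in the charts. -/
def CForm {k : ℕ} (r : WithTop ℕ∞) (a : Form E F k M) : Prop :=
  ∀ e ∈ atlas E M, ContDiffOn ℝ r (pull e.symm a) e.target

/-- The form is continuous in the charts. -/
def ContForm {k : ℕ} (a : Form E F k M) : Prop :=
  ∀ e ∈ atlas E M, ContinuousOn (pull e.symm a) e.target

/-- `a` is the exterior derivative of `b`. -/
def IsExt {k : ℕ} (b : Form E F k M) (a : Form E F (k + 1) M) : Prop :=
  ∀ e ∈ atlas E M, ∀ z ∈ e.target, extDeriv (pull e.symm b) z = pull e.symm a z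

theorem CForm.contForm {k : ℕ} {r : WithTop ℕ∞} {a : Form E F k M} (h : CForm r a) :
    ContForm a := fun e he => (h e he).continuousOn

/-- The differential of a function at `x`, as a linear form on `E`. -/
def mfdR (r : M → ℝ) (x : M) : E →L[ℝ] ℝ := mfderiv 𝓘(ℝ, E) 𝓘(ℝ) r x

/-- The wedge product of the differential of a function and a form. -/
def dwedge {k : ℕ} (r : M → ℝ) (a : Form E F k M) : Form E F (k + 1) M :=
  fun x => (wedge1 (mfdR r x : E →L[ℝ] ℝ) (val a x) : E [⋀^Fin (k + 1)]→L[ℝ] F)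

theorem val_dwedge {k : ℕ} (r : M → ℝ) (a : Form E F k M) (x : M) :
    val (dwedge r a) x = wedge1 (mfdR r x) (val a x) := rfl

theorem val_fsmul {k : ℕ} (r : M → ℝ) (a : Form E F k M) (x : M) :
    val (fsmul r a) x = r x • val a x := rfl

theorem val_add {k : ℕ} (a b : Form E F k M) (x : M) :
    val (a + b) x = val a x + val b x := rfl

theorem val_sum {k : ℕ} {ι : Type*} (s : Finset ι) (a : ι → Form E F k M) (x : M) :
    val (∑ i ∈ s, a i) x = ∑ i ∈ s, val (a i) x := by
  classical
  induction s using Finset.induction_on with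
  | empty => simp; rfl
  | insert i s hi ih => rw [Finset.sum_insert hi, Finset.sum_insert hi, val_add, ih]

theorem form_ext {k : ℕ} {a b : Form E F k M} (h : ∀ x, val a x = val b x) : a = b :=
  funext h

end Vale.Agent.P267.H928.Int
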