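import Vale.Agent.P267.H928.Int.Meas

/-!
# The integral of a density

`P.integ μ c` is the integral of the density `c` over `M`. It is computed with any finite partition
of unity subordinate to charts.
-/

open Module Topology Set Function MeasureTheory Measure
open scoped ContDiff Manifold ENNReal

noncomputable section

namespace Vale.Agent.P267.H928.Int

variable {E : Type*} [NormedAddCommGroup E] [NormedSpace ℝ E] [FiniteDimensional ℝ E]
  [MeasurableSpace E] [BorelSpace E]
variable {F : Type*} [NormedAddCommGroup F] [NormedSpace ℝ F]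
variable {M : Type*} [TopologicalSpace M] [ChartedSpace E M]

/-- The density is continuous in the charts. -/
def DCont (M : Type*) [TopologicalSpace M] [ChartedSpace E M]
    (c : OpenPartialHomeomorph M E → E → F) : Prop :=
  ∀ e ∈ atlas E M, ContinuousOn (c e) e.target

/-- The density vanishes outside `K`. -/
def DSupp (K : Set M) (c : OpenPartialHomeomorph M E → E → F) : Prop :=
  ∀ e ∈ atlas E M, ∀ z ∈ e.target, e.symm z ∉ K → c e z = 0

/-- Product of a density and a function. -/
def dmul (r : M → ℝ) (c : OpenPartialHomeomorph M E → E → F) :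
    OpenPartialHomeomorph M E → E → F := fun e z => r (e.symm z) • c e z

omit [FiniteDimensional ℝ E] [MeasurableSpace E] [BorelSpace E] in
theorem IsDens.dmul {c : OpenPartialHomeomorph M E → E → F} (hc : IsDens M c) (r : M → ℝ) :
    IsDens M (dmul r c) := by
  intro e he e' he' z hz hz'
  have hx : e'.symm (chg e e' z) = e.symm z := e'.left_inv hz'
  simp only [Int.dmul]
  rw [hx, hc e he e' he' z hz hz', smul_comm]

omit [FiniteDimensional ℝ E] [MeasurableSpace E] [BorelSpace E] in
theorem IsDens.add {c c' : OpenPartialHomeomorph M E → E → F} (hc : IsDens M c)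
    (hc' : IsDens M c') : IsDens M (c + c') := by
  intro e he e' he' z hz hz'
  simp only [Pi.add_apply]
  rw [hc e he e' he' z hz hz', hc' e he e' he' z hz hz', smul_add]

omit [FiniteDimensional ℝ E] [MeasurableSpace E] [BorelSpace E] in
theorem IsDens.smul {c : OpenPartialHomeomorph M E → E → F} (hc : IsDens M c) (r : ℝ) :
    IsDens M (r • c) := by
  intro e he e' he' z hz hz'
  simp only [Pi.smul_apply]
  rw [hc e he e' he' z hz hz', smul_comm]

namespace Pou

variable (P : Pou E M) (μ : Measure E)

section Quo

omit [FiniteDimensional ℝ E] [MeasurableSpace E] [BorelSpace E]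

theorem quo_add (c c' : OpenPartialHomeomorph M E → E → F) :
    P.quo (c + c') = P.quo c + P.quo c' := by
  funext x; simp [quo]

theorem quo_smul (r : ℝ) (c : OpenPartialHomeomorph M E → E → F) :
    P.quo (r • c) = r • P.quo c := by
  funext x
  simp only [quo, Pi.smul_apply]
  rw [smul_comm]

theorem quo_sum {ι : Type*} (s : Finset ι) (c : ι → OpenPartialHomeomorph M E → E → F) :
    P.quo (∑ i ∈ s, c i) = ∑ i ∈ s, P.quo (c i) := by
  funext x; simp [quo, Finset.smul_sum, Finset.sum_apply]

theorem quo_dmul (r : M → ℝ) (c : OpenPartialHomeomorph M E → E → F) (x : M) :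
    P.quo (dmul r c) x = r x • P.quo c x := by
  have : (chartAt E x).symm (chartAt E x x) = x := (chartAt E x).left_inv (mem_chart_source E x)
  simp only [quo, dmul]
  rw [this, smul_comm]

theorem quo_eq_zero {K : Set M} {c : OpenPartialHomeomorph M E → E → F} (hc : DSupp K c) {x : M}
    (hx : x ∉ K) : P.quo c x = 0 := by
  have : (chartAt E x).symm (chartAt E x x) = x := (chartAt E x).left_inv (mem_chart_source E x)
  rw [quo, hc _ (chart_mem_atlas E x) _ (mem_chart_target E x) (by rwa [this]), smul_zero]

end Quo

section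

variable [IsManifold 𝓘(ℝ, E) ∞ M] [PosAtlas E M]

omit [MeasurableSpace E] [BorelSpace E] in
theorem continuousAt_quo {c : OpenPartialHomeomorph M E → E → F} (hc : IsDens M c) {x : M}
    {e : OpenPartialHomeomorph M E} (he : e ∈ atlas E M) (hx : x ∈ e.source)
    (hcont : ContinuousAt (c e) (e x)) : ContinuousAt (P.quo c) x := by
  have h1 : P.quo c =ᶠ[𝓝 x] fun y => (P.w e (e y))⁻¹ • c e (e y) := by
    filter_upwards [e.open_source.mem_nhds hx] with y hy
    have := P.quo_symm hc he (e.map_source hy)
    rwa [e.left_inv hy] at this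
  refine ContinuousAt.congr ?_ h1.symm
  have h2 : ContinuousAt e x := e.continuousAt hx
  have h3 : ContinuousAt (P.w e) (e x) :=
    (P.contDiffOn_w he).continuousOn.continuousAt (e.open_target.mem_nhds (e.map_source hx))
  have h4 : P.w e (e x) ≠ 0 := (P.w_pos he (e.map_source hx)).ne'
  have h5 : ContinuousAt (fun y => P.w e (e y)) x := h3.comp_of_eq h2 rfl
  have h6 : ContinuousAt (fun y => c e (e y)) x := hcont.comp_of_eq h2 rfl
  exact (h5.inv₀ h4).smul h6

omit [MeasurableSpace E] [BorelSpace E] in
theorem continuous_quo {c : OpenPartialHomeomorph M E → E → F} (hc : IsDens M c)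
    (hcont : DCont M c) : Continuous (P.quo c) := by
  rw [continuous_iff_continuousAt]
  intro x
  exact P.continuousAt_quo hc (chart_mem_atlas E x) (mem_chart_source E x)
    ((hcont _ (chart_mem_atlas E x)).continuousAt
      ((chartAt E x).open_target.mem_nhds (mem_chart_target E x)))

end

variable [MeasurableSpace M] [BorelSpace M]

/-- The integral of a density over `M`. -/
def integ (c : OpenPartialHomeomorph M E → E → F) : F := ∫ x, P.quo c x ∂(P.meas μ)

section

variable [IsManifold 𝓘(ℝ, E) ∞ M] [PosAtlas E M] [μ.IsAddHaarMeasure]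

/-- The chart formula for integrals of functions. -/
theorem integral_chart {e : OpenPartialHomeomorph M E} (he : e ∈ atlas E M) {f : M → F}
    (hf : AEStronglyMeasurable f (P.meas μ)) (hf0 : ∀ x ∉ e.source, f x = 0) :
    ∫ x, f x ∂(P.meas μ) = ∫ z in e.target, P.w e z • f (e.symm z) ∂μ := by
  have h1 : ∫ x, f x ∂(P.meas μ) = ∫ x in e.source, f x ∂(P.meas μ) :=
    (setIntegral_eq_integral_of_forall_compl_eq_zero fun x hx => hf0 x hx).symm
  have h3 : AEMeasurable e.symm ((μ.restrict e.target).withDensity fun z =>
      ENNReal.ofReal (P.w e z)) :=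
    (aemeas_symm μ e).mono_ac (withDensity_absolutelyContinuous _ _)
  have h4 : AEStronglyMeasurable f (Measure.map e.symm
      ((μ.restrict e.target).withDensity fun z => ENNReal.ofReal (P.w e z))) := by
    rw [← P.restrict_meas μ he]; exact hf.restrict
  rw [h1, P.restrict_meas μ he, integral_map h3 h4,
    integral_withDensity_eq_integral_toReal_smul₀ (P.aemeas_w μ he)
      (Filter.Eventually.of_forall fun z => ENNReal.ofReal_lt_top)]
  refine setIntegral_congr_fun e.open_target.measurableSet fun z hz => ?_
  rw [ENNReal.toReal_ofReal (P.w_pos he hz).le]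

theorem integrable_chart {e : OpenPartialHomeomorph M E} (he : e ∈ atlas E M) {f : M → F}
    (hf : AEStronglyMeasurable f (P.meas μ)) (hf0 : ∀ x ∉ e.source, f x = 0) :
    Integrable f (P.meas μ) ↔ IntegrableOn (fun z => P.w e z • f (e.symm z)) e.target μ := by
  have h1 : Integrable f (P.meas μ) ↔ IntegrableOn f e.source (P.meas μ) :=
    (integrableOn_iff_integrable_of_support_subset (fun x hx => by
      by_contra h; exact hx (hf0 x h))).symm
  have h3 : AEMeasurable e.symm ((μ.restrict e.target).withDensity fun z =>
      ENNReal.ofReal (P.w e z)) :=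
    (aemeas_symm μ e).mono_ac (withDensity_absolutelyContinuous _ _)
  have h4 : AEStronglyMeasurable f (Measure.map e.symm
      ((μ.restrict e.target).withDensity fun z => ENNReal.ofReal (P.w e z))) := by
    rw [← P.restrict_meas μ he]; exact hf.restrict
  rw [h1, IntegrableOn, P.restrict_meas μ he, integrable_map_measure h4 h3,
    integrable_withDensity_iff_integrable_smul₀' (P.aemeas_w μ he)
      (Filter.Eventually.of_forall fun z => ENNReal.ofReal_lt_top)]
  refine integrable_congr ?_
  filter_upwards [ae_restrict_mem e.open_target.measurableSet] with z hz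
  simp only [comp_apply]
  rw [ENNReal.toReal_ofReal (P.w_pos he hz).le]

/-- The chart formula for the integral of a density. -/
theorem integ_chart {e : OpenPartialHomeomorph M E} (he : e ∈ atlas E M)
    {c : OpenPartialHomeomorph M E → E → F} (hc : IsDens M c)
    (hm : AEStronglyMeasurable (P.quo c) (P.meas μ)) (hc0 : DSupp e.source c) :
    P.integ μ c = ∫ z in e.target, c e z ∂μ := by
  rw [integ, P.integral_chart μ he hm fun x hx => P.quo_eq_zero hc0 hx]
  exact setIntegral_congr_fun e.open_target.measurableSet fun z hz => P.w_smul_quo hc he hz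

instance isLocallyFinite_meas : IsLocallyFiniteMeasure (P.meas μ) := by
  refine ⟨fun x => ?_⟩
  set e := chartAt E x
  have he : e ∈ atlas E M := chart_mem_atlas E x
  obtain ⟨r, hr, hrs⟩ := Metric.nhds_basis_closedBall.mem_iff.mp
    (e.open_target.mem_nhds (mem_chart_target E x))
  set K := Metric.closedBall (e x) r
  have hK : IsCompact K := isCompact_closedBall _ _
  set V : Set M := e.source ∩ e ⁻¹' Metric.ball (e x) r
  have hV : IsOpen V := e.isOpen_inter_preimage Metric.isOpen_ball
  refine ⟨V, hV.mem_nhds ⟨mem_chart_source E x, Metric.mem_ball_self hr⟩, ?_⟩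
  have h1 := P.lintegral_meas_chart μ he (g := V.indicator fun _ => 1)
    (measurable_const.indicator hV.measurableSet)
    (fun y hy => indicator_of_notMem (fun h => hy h.1) _)
  rw [lintegral_indicator_const hV.measurableSet, one_mul] at h1
  rw [h1]
  have hw : ContinuousOn (P.w e) K := (P.contDiffOn_w he).continuousOn.mono hrs
  obtain ⟨C, hC⟩ := hK.exists_bound_of_continuousOn hw
  have h2 : ∫⁻ z in e.target, ENNReal.ofReal (P.w e z) *
      V.indicator (fun _ => (1 : ℝ≥0∞)) (e.symm z) ∂μ ≤
      ∫⁻ z in e.target, K.indicator (fun _ => ENNReal.ofReal C) z ∂μ := by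
    refine setLIntegral_mono' e.open_target.measurableSet fun z hz => ?_
    by_cases h : e.symm z ∈ V
    · have hz2 : z ∈ K := by
        have := h.2
        simp only [mem_preimage] at this
        rw [e.right_inv hz] at this
        exact Metric.ball_subset_closedBall this
      rw [indicator_of_mem h, indicator_of_mem hz2, mul_one]
      refine ENNReal.ofReal_le_ofReal ((le_abs_self _).trans ?_)
      exact hC z hz2
    · rw [indicator_of_notMem h, mul_zero]; exact zero_le
  refine h2.trans_lt ?_
  refine (lintegral_mono' Measure.restrict_le_self le_rfl).trans_lt ?_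
  rw [lintegral_indicator_const hK.measurableSet]
  exact ENNReal.mul_lt_top ENNReal.ofReal_lt_top hK.measure_lt_top

theorem integrable_quo [T2Space M] {c : OpenPartialHomeomorph M E → E → F} (hc : IsDens M c)
    (hcont : DCont M c) {K : Set M} (hK : IsCompact K) (hs : DSupp K c) :
    Integrable (P.quo c) (P.meas μ) := by
  refine (P.continuous_quo hc hcont).integrable_of_hasCompactSupport ?_
  refine HasCompactSupport.intro hK fun x hx => P.quo_eq_zero hs hx

omit [FiniteDimensional ℝ E] [IsManifold 𝓘(ℝ, E) ∞ M] [PosAtlas E M] [μ.IsAddHaarMeasure] in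
theorem integ_add {c c' : OpenPartialHomeomorph M E → E → F}
    (hc : Integrable (P.quo c) (P.meas μ)) (hc' : Integrable (P.quo c') (P.meas μ)) :
    P.integ μ (c + c') = P.integ μ c + P.integ μ c' := by
  rw [integ, quo_add]; exact integral_add hc hc'

omit [FiniteDimensional ℝ E] [IsManifold 𝓘(ℝ, E) ∞ M] [PosAtlas E M] [μ.IsAddHaarMeasure] in
theorem integ_smul (r : ℝ) (c : OpenPartialHomeomorph M E → E → F) :
    P.integ μ (r • c) = r • P.integ μ c := by
  rw [integ, quo_smul]; exact integral_smul r _

omit [FiniteDimensional ℝ E] [IsManifold 𝓘(ℝ, E) ∞ M] [PosAtlas E M] [μ.IsAddHaarMeasure] in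
theorem integ_sum {ι : Type*} (s : Finset ι) {c : ι → OpenPartialHomeomorph M E → E → F}
    (hc : ∀ i ∈ s, Integrable (P.quo (c i)) (P.meas μ)) :
    P.integ μ (∑ i ∈ s, c i) = ∑ i ∈ s, P.integ μ (c i) := by
  rw [integ, quo_sum]
  simp only [Finset.sum_apply]
  exact integral_finsetSum s hc

/-- The integral computed with any finite partition of unity subordinate to charts. -/
theorem integ_eq_sum {c : OpenPartialHomeomorph M E → E → F} (hc : IsDens M c)
    (hint : Integrable (P.quo c) (P.meas μ)) {N : Type*} [Fintype N]
    (e : N → OpenPartialHomeomorph M E) (he : ∀ i, e i ∈ atlas E M) (r : N → M → ℝ)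
    (hr : ∀ i, Continuous (r i)) (hb : ∀ i, ∃ C, ∀ x, |r i x| ≤ C)
    (hsub : ∀ i, support (r i) ⊆ (e i).source)
    (hsum : ∀ x, P.quo c x ≠ 0 → ∑ i, r i x = 1) :
    P.integ μ c = ∑ i, ∫ z in (e i).target, r i ((e i).symm z) • c (e i) z ∂μ := by
  classical
  have h1 : P.quo c = ∑ i, P.quo (dmul (r i) c) := by
    funext x
    simp only [Finset.sum_apply, quo_dmul, ← Finset.sum_smul]
    by_cases h : P.quo c x = 0
    · rw [h, smul_zero]
    · rw [hsum x h, one_smul]
  have h2 : ∀ i, Integrable (P.quo (dmul (r i) c)) (P.meas μ) := by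
    intro i
    obtain ⟨C, hC⟩ := hb i
    have : P.quo (dmul (r i) c) = fun x => r i x • P.quo c x := funext fun x => P.quo_dmul _ _ _
    rw [this]
    exact hint.bdd_smul C (hr i).aestronglyMeasurable
      (Filter.Eventually.of_forall fun x => by simpa using hC x)
  have h3 : ∀ i, DSupp (e i).source (dmul (r i) c) := by
    intro i e' he' z hz hx
    have : r i (e'.symm z) = 0 := by
      by_contra h
      exact hx (hsub i h)
    simp only [dmul, this, zero_smul]
  rw [integ, h1]
  simp only [Finset.sum_apply]
  rw [integral_finsetSum _ fun i _ => h2 i]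
  refine Finset.sum_congr rfl fun i _ => ?_
  exact P.integ_chart μ (he i) (hc.dmul (r i)) (h2 i).aestronglyMeasurable (h3 i)

end

end Pou

end Vale.Agent.P267.H928.Int
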