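import Vale.Agent.P267.H928.Int.Dens
import Mathlib.MeasureTheory.Function.Jacobian
import Mathlib.MeasureTheory.Measure.WithDensity
import Mathlib.MeasureTheory.Measure.Haar.NormedSpace
import Mathlib.MeasureTheory.Integral.Bochner.ContinuousLinearMap

/-!
# The reference measure and the integral of densities

`P : Pou E M` is a partition of unity. `P.meas μ` is the Borel measure on `M` which in every chart
`e` of the atlas is `P.w e` times the Haar measure `μ`. A density is a family of functions, one for
each chart, which transforms with the Jacobian determinant.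
-/

open Module Topology Set Function MeasureTheory Measure
open scoped ContDiff Manifold ENNReal

noncomputable section

namespace Vale.Agent.P267.H928.Int

variable {E : Type*} [NormedAddCommGroup E] [NormedSpace ℝ E] [FiniteDimensional ℝ E]
  [MeasurableSpace E] [BorelSpace E]
variable {F : Type*} [NormedAddCommGroup F] [NormedSpace ℝ F]
variable {M : Type*} [TopologicalSpace M] [ChartedSpace E M]

/-- A family of functions in charts which transforms like the coefficient of a form of top degree. -/
def IsDens (M : Type*) [TopologicalSpace M] [ChartedSpace E M]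
    (c : OpenPartialHomeomorph M E → E → F) : Prop :=
  ∀ e ∈ atlas E M, ∀ e' ∈ atlas E M, ∀ z ∈ e.target, e.symm z ∈ e'.source →
    c e z = (fderiv ℝ (chg e e') z).det • c e' (chg e e' z)

omit [FiniteDimensional ℝ E] [MeasurableSpace E] [BorelSpace E] in
theorem isDens_cf [IsManifold 𝓘(ℝ, E) ∞ M] {n : ℕ} (b : Basis (Fin n) ℝ E) (a : Form E F n M) :
    IsDens M (fun e z => cf b e a z) :=
  fun _ he _ he' _ hz hz' => cf_chg b a he he' hz hz'

omit [FiniteDimensional ℝ E] [MeasurableSpace E] [BorelSpace E] in
theorem isDens_w [IsManifold 𝓘(ℝ, E) ∞ M] (P : Pou E M) : IsDens M P.w :=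
  fun _ he _ he' _ hz hz' => P.w_chg he he' hz hz'

theorem setLIntegral_eq_of_zero {α : Type*} [MeasurableSpace α] {ν : Measure α} {A B : Set α}
    (hA : MeasurableSet A) (hB : MeasurableSet B) (hAB : A ⊆ B) {f : α → ℝ≥0∞}
    (hf : ∀ x ∈ B, x ∉ A → f x = 0) : ∫⁻ x in B, f x ∂ν = ∫⁻ x in A, f x ∂ν := by
  have h1 := lintegral_inter_add_diff (μ := ν) f B hA
  rw [inter_eq_self_of_subset_right hAB] at h1
  have h2 : ∫⁻ x in B \ A, f x ∂ν = 0 := by
    rw [setLIntegral_congr_fun (hB.diff hA) (g := fun _ => 0) (fun x hx => hf x hx.1 hx.2)]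
    simp
  rw [h2, add_zero] at h1
  exact h1.symm

namespace Pou

variable (P : Pou E M) (μ : Measure E)

/-- The function on `M` which is the quotient of the density `c` by the reference density. -/
def quo (c : OpenPartialHomeomorph M E → E → F) (x : M) : F :=
  (P.w (chartAt E x) (chartAt E x x))⁻¹ • c (chartAt E x) (chartAt E x x)

omit [FiniteDimensional ℝ E] [MeasurableSpace E] [BorelSpace E] in
theorem quo_symm [IsManifold 𝓘(ℝ, E) ∞ M] [PosAtlas E M]
    {c : OpenPartialHomeomorph M E → E → F} (hc : IsDens M c)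
    {e : OpenPartialHomeomorph M E} (he : e ∈ atlas E M) {z : E} (hz : z ∈ e.target) :
    P.quo c (e.symm z) = (P.w e z)⁻¹ • c e z := by
  have h1 : e.symm z ∈ (chartAt E (e.symm z)).source := mem_chart_source E _
  have h2 := hc e he _ (chart_mem_atlas E (e.symm z)) z hz h1
  have h3 := P.w_chg he (chart_mem_atlas E (e.symm z)) hz h1
  have h4 := PosAtlas.pos e he _ (chart_mem_atlas E (e.symm z)) z hz h1
  rw [quo, h2, h3, mul_inv, smul_smul]
  congr 1
  rw [mul_comm, ← mul_assoc, mul_inv_cancel₀ h4.ne', one_mul]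

omit [FiniteDimensional ℝ E] [MeasurableSpace E] [BorelSpace E] in
theorem w_smul_quo [IsManifold 𝓘(ℝ, E) ∞ M] [PosAtlas E M]
    {c : OpenPartialHomeomorph M E → E → F} (hc : IsDens M c)
    {e : OpenPartialHomeomorph M E} (he : e ∈ atlas E M) {z : E} (hz : z ∈ e.target) :
    P.w e z • P.quo c (e.symm z) = c e z := by
  rw [P.quo_symm hc he hz, smul_smul, mul_inv_cancel₀ (P.w_pos he hz).ne', one_smul]

variable [MeasurableSpace M] [BorelSpace M]

/-- The reference measure. -/
def meas : Measure M := by
  exact Measure.sum fun i : P.ι => Measure.map (P.e i).symm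
    ((μ.restrict (P.e i).target).withDensity fun z => ENNReal.ofReal (P.ρ i ((P.e i).symm z)))

section

variable [IsManifold 𝓘(ℝ, E) ∞ M]

omit [FiniteDimensional ℝ E] [IsManifold 𝓘(ℝ, E) ∞ M] in
theorem aemeas_symm (e : OpenPartialHomeomorph M E) : AEMeasurable e.symm (μ.restrict e.target) :=
  e.continuousOn_symm.aemeasurable e.open_target.measurableSet

omit [FiniteDimensional ℝ E] in
theorem measurable_ρ (i : P.ι) : Measurable (P.ρ i) := (P.smooth i).continuous.measurable

omit [FiniteDimensional ℝ E] in
theorem lintegral_meas {g : M → ℝ≥0∞} (hg : Measurable g) :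
    ∫⁻ x, g x ∂(P.meas μ) = ∑' i, ∫⁻ z in (P.e i).target,
      ENNReal.ofReal (P.ρ i ((P.e i).symm z)) * g ((P.e i).symm z) ∂μ := by
  rw [meas, lintegral_sum_measure]
  refine tsum_congr fun i => ?_
  have h1 := aemeas_symm μ (P.e i)
  have h2 : AEMeasurable (fun z => ENNReal.ofReal (P.ρ i ((P.e i).symm z)))
      (μ.restrict (P.e i).target) :=
    (ENNReal.measurable_ofReal.comp (P.measurable_ρ i)).comp_aemeasurable h1
  have h3 : AEMeasurable (P.e i).symm ((μ.restrict (P.e i).target).withDensity fun z =>
      ENNReal.ofReal (P.ρ i ((P.e i).symm z))) :=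
    h1.mono_ac (withDensity_absolutelyContinuous _ _)
  rw [lintegral_map' hg.aemeasurable h3]
  exact lintegral_withDensity_eq_lintegral_mul₀ h2 (hg.comp_aemeasurable h1)

variable [μ.IsAddHaarMeasure] [PosAtlas E M]

/-- The chart formula for the reference measure. -/
theorem lintegral_meas_chart {e : OpenPartialHomeomorph M E} (he : e ∈ atlas E M)
    {g : M → ℝ≥0∞} (hg : Measurable g) (hg0 : ∀ x ∉ e.source, g x = 0) :
    ∫⁻ x, g x ∂(P.meas μ) =
      ∫⁻ z in e.target, ENNReal.ofReal (P.w e z) * g (e.symm z) ∂μ := by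
  have := P.cnt
  rw [P.lintegral_meas μ hg]
  have hterm : ∀ i, ∫⁻ z in (P.e i).target,
      ENNReal.ofReal (P.ρ i ((P.e i).symm z)) * g ((P.e i).symm z) ∂μ =
      ∫⁻ z in e.target, ENNReal.ofReal
        (P.ρ i (e.symm z) * (fderiv ℝ (chg e (P.e i)) z).det) * g (e.symm z) ∂μ := by
    intro i
    set S : Set E := e.target ∩ e.symm ⁻¹' (P.e i).source with hS
    have hSo : IsOpen S := e.isOpen_inter_preimage_symm (P.e i).open_source
    have hSm : MeasurableSet S := hSo.measurableSet
    have hder : ∀ z ∈ S, HasFDerivWithinAt (chg e (P.e i)) (fderiv ℝ (chg e (P.e i)) z) S z :=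
      fun z hz => ((contDiffAt_chg he (P.mem i) hz.1 hz.2).differentiableAt
        (by simp)).hasFDerivAt.hasFDerivWithinAt
    have hinj : InjOn (chg e (P.e i)) S := by
      intro z hz z' hz' h
      have h1 := (P.e i).injOn hz.2 hz'.2 h
      exact e.symm.injOn hz.1 hz'.1 h1
    have himg : chg e (P.e i) '' S = (P.e i).target ∩ (P.e i).symm ⁻¹' e.source := by
      ext y
      constructor
      · rintro ⟨z, hz, rfl⟩
        refine ⟨(P.e i).map_source hz.2, ?_⟩
        simp only [mem_preimage, chg]
        rw [(P.e i).left_inv hz.2]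
        exact e.map_target hz.1
      · rintro ⟨hy, hy'⟩
        refine ⟨e ((P.e i).symm y), ⟨e.map_source hy', ?_⟩, ?_⟩
        · simp only [mem_preimage]
          rw [e.left_inv hy']
          exact (P.e i).map_target hy
        · simp only [chg]
          rw [e.left_inv hy', (P.e i).right_inv hy]
    have hsub : (P.e i).target ∩ (P.e i).symm ⁻¹' e.source ⊆ (P.e i).target := inter_subset_left
    have hTm : MeasurableSet ((P.e i).target ∩ (P.e i).symm ⁻¹' e.source) :=
      ((P.e i).isOpen_inter_preimage_symm e.open_source).measurableSet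
    have e1 : ∫⁻ z in (P.e i).target,
        ENNReal.ofReal (P.ρ i ((P.e i).symm z)) * g ((P.e i).symm z) ∂μ =
        ∫⁻ z in chg e (P.e i) '' S,
          ENNReal.ofReal (P.ρ i ((P.e i).symm z)) * g ((P.e i).symm z) ∂μ := by
      rw [himg]
      refine setLIntegral_eq_of_zero hTm (P.e i).open_target.measurableSet hsub ?_
      intro y hy hy'
      rw [hg0 _ fun h => hy' ⟨hy, h⟩, mul_zero]
    have e2 : ∫⁻ z in e.target, ENNReal.ofReal
        (P.ρ i (e.symm z) * (fderiv ℝ (chg e (P.e i)) z).det) * g (e.symm z) ∂μ =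
        ∫⁻ z in S, ENNReal.ofReal
        (P.ρ i (e.symm z) * (fderiv ℝ (chg e (P.e i)) z).det) * g (e.symm z) ∂μ := by
      refine setLIntegral_eq_of_zero hSm e.open_target.measurableSet inter_subset_left ?_
      intro y hy hy'
      have : P.ρ i (e.symm y) = 0 := by
        by_contra h
        exact hy' ⟨hy, P.sub i (subset_tsupport _ h)⟩
      rw [this, zero_mul, ENNReal.ofReal_zero, zero_mul]
    rw [e1, e2, lintegral_image_eq_lintegral_abs_det_fderiv_mul μ hSm hder hinj]
    refine setLIntegral_congr_fun hSm fun z hz => ?_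
    have h1 : (P.e i).symm (chg e (P.e i) z) = e.symm z := (P.e i).left_inv hz.2
    have h2 := PosAtlas.pos e he _ (P.mem i) z hz.1 hz.2
    rw [h1, abs_of_pos h2, ← mul_assoc, ← ENNReal.ofReal_mul h2.le,
      mul_comm (P.ρ i (e.symm z))]
  simp_rw [hterm]
  rw [← lintegral_tsum]
  · refine setLIntegral_congr_fun e.open_target.measurableSet fun z hz => ?_
    rw [ENNReal.tsum_mul_right]
    congr 1
    have hnn : ∀ i, 0 ≤ P.ρ i (e.symm z) * (fderiv ℝ (chg e (P.e i)) z).det := by
      intro i
      by_cases h : P.ρ i (e.symm z) = 0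
      · simp [h]
      · have h1 : e.symm z ∈ (P.e i).source := P.sub i (subset_tsupport _ h)
        exact mul_nonneg (P.nonneg i _) (PosAtlas.pos e he _ (P.mem i) z hz h1).le
    have hfin : (support fun i => P.ρ i (e.symm z) * (fderiv ℝ (chg e (P.e i)) z).det).Finite := by
      refine (P.finite_support (e.symm z)).subset fun j hj => ?_
      intro h
      exact hj (by simp [h])
    have h1 : P.w e z = ∑' i, P.ρ i (e.symm z) * (fderiv ℝ (chg e (P.e i)) z).det := by
      rw [w]; exact (tsum_eq_finsum hfin).symm
    rw [h1, ENNReal.ofReal_tsum_of_nonneg hnn (summable_of_finite_support hfin)]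
  · intro i
    have h1 : AEMeasurable (fun z => g (e.symm z)) (μ.restrict e.target) :=
      hg.comp_aemeasurable (aemeas_symm μ e)
    have h2 : ContinuousOn (fun y => P.ρ i (e.symm y) * (fderiv ℝ (chg e (P.e i)) y).det)
        e.target := fun z hz => (P.contDiffAt_term he hz i).continuousAt.continuousWithinAt
    have h3 := h2.aemeasurable (μ := μ) e.open_target.measurableSet
    exact (ENNReal.measurable_ofReal.comp_aemeasurable h3).mul h1

theorem aemeas_w {e : OpenPartialHomeomorph M E} (he : e ∈ atlas E M) :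
    AEMeasurable (fun z => ENNReal.ofReal (P.w e z)) (μ.restrict e.target) :=
  ENNReal.measurable_ofReal.comp_aemeasurable
    ((P.contDiffOn_w he).continuousOn.aemeasurable e.open_target.measurableSet)

/-- The chart formula for the reference measure. -/
theorem restrict_meas {e : OpenPartialHomeomorph M E} (he : e ∈ atlas E M) :
    (P.meas μ).restrict e.source = Measure.map e.symm
      ((μ.restrict e.target).withDensity fun z => ENNReal.ofReal (P.w e z)) := by
  have h3 : AEMeasurable e.symm ((μ.restrict e.target).withDensity fun z =>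
      ENNReal.ofReal (P.w e z)) :=
    (aemeas_symm μ e).mono_ac (withDensity_absolutelyContinuous _ _)
  ext s hs
  rw [Measure.restrict_apply hs]
  have hm : MeasurableSet (s ∩ e.source) := hs.inter e.open_source.measurableSet
  have h1 := P.lintegral_meas_chart μ he (g := (s ∩ e.source).indicator fun _ => 1)
    (measurable_const.indicator hm) (fun x hx => indicator_of_notMem (fun h => hx h.2) _)
  rw [lintegral_indicator_const hm, one_mul] at h1
  rw [h1, Measure.map_apply_of_aemeasurable h3 hs]
  have h4 : AEMeasurable (fun z => (s ∩ e.source).indicator (fun _ => (1 : ℝ≥0∞)) (e.symm z))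
      (μ.restrict e.target) :=
    (measurable_const.indicator hm).comp_aemeasurable (aemeas_symm μ e)
  have h5 := lintegral_withDensity_eq_lintegral_mul₀ (P.aemeas_w μ he) h4
  have h6 : ∫⁻ z in e.target, ENNReal.ofReal (P.w e z) *
      (s ∩ e.source).indicator (fun _ => (1 : ℝ≥0∞)) (e.symm z) ∂μ =
      ∫⁻ z, (s ∩ e.source).indicator (fun _ => (1 : ℝ≥0∞)) (e.symm z)
        ∂((μ.restrict e.target).withDensity fun z => ENNReal.ofReal (P.w e z)) := by
    rw [h5]; rfl
  rw [h6]
  have h7 : ∫⁻ z, (s ∩ e.source).indicator (fun _ => (1 : ℝ≥0∞)) (e.symm z)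
      ∂((μ.restrict e.target).withDensity fun z => ENNReal.ofReal (P.w e z)) =
      ∫⁻ x, (s ∩ e.source).indicator (fun _ => (1 : ℝ≥0∞)) x ∂(Measure.map e.symm
        ((μ.restrict e.target).withDensity fun z => ENNReal.ofReal (P.w e z))) := by
    rw [lintegral_map' (measurable_const.indicator hm).aemeasurable h3]
  rw [h7, lintegral_indicator_const hm, one_mul, Measure.map_apply_of_aemeasurable h3 hm]
  have h8 : ((μ.restrict e.target).withDensity fun z => ENNReal.ofReal (P.w e z))
      ((e.target)ᶜ) = 0 := by
    refine withDensity_absolutelyContinuous _ _ ?_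
    rw [Measure.restrict_apply e.open_target.measurableSet.compl]
    simp
  have h9 : e.symm ⁻¹' (s ∩ e.source) =ᵐ[(μ.restrict e.target).withDensity fun z =>
      ENNReal.ofReal (P.w e z)] e.symm ⁻¹' s := by
    have h10 : ∀ᵐ z ∂((μ.restrict e.target).withDensity fun z => ENNReal.ofReal (P.w e z)),
        z ∈ e.target := h8
    filter_upwards [h10] with z hz
    apply propext
    exact ⟨fun h => h.1, fun h => ⟨h, e.map_target hz⟩⟩
  exact measure_congr h9

end

end Pou

end Vale.Agent.P267.H928.Int
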