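import Vale.Agent.P267.H928.Int.Integ

/-!
# Stokes' formula

If the form `a` of top degree is the exterior derivative of the `C¹` form `η` with compact support,
then the integral of `a` is zero.
-/

open Module Topology Set Function MeasureTheory Measure
open scoped ContDiff Manifold ENNReal

noncomputable section

namespace Vale.Agent.P267.H928.Int

variable {E : Type*} [NormedAddCommGroup E] [NormedSpace ℝ E]
variable {F : Type*} [NormedAddCommGroup F] [NormedSpace ℝ F]
variable {M : Type*} [TopologicalSpace M] [ChartedSpace E M]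

section Ext

variable {k : ℕ}

/-- A form vanishes outside `K`. -/
def SuppIn (K : Set M) (a : Form E F k M) : Prop := ∀ x ∉ K, a x = 0

theorem SuppIn.pull_eventually {K : Set M} (hK : IsClosed K) {η : Form E F k M} (hs : SuppIn K η)
    {e : OpenPartialHomeomorph M E} {z : E} (hz : z ∈ e.target) (hx : e.symm z ∉ K) :
    pull e.symm η =ᶠ[𝓝 z] 0 := by
  filter_upwards [(e.continuousAt_symm hz).eventually (hK.isOpen_compl.mem_nhds hx)] with y hy
  exact pull_of_eq_zero (hs _ hy)

omit [TopologicalSpace M] [ChartedSpace E M] in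
theorem extDeriv_zero' (z : E) : extDeriv (0 : E → E [⋀^Fin k]→L[ℝ] F) z = 0 := by
  have : (0 : E → E [⋀^Fin k]→L[ℝ] F) = fun _ => 0 := rfl
  rw [this]
  ext v
  rw [extDeriv_apply (differentiableAt_const _)]
  simp

theorem eq_zero_of_pull {a : Form E F k M} {e : OpenPartialHomeomorph M E} [IsManifold 𝓘(ℝ, E) ∞ M]
    (he : e ∈ atlas E M) {x : M} (hx : x ∈ e.source) (h : pull e.symm a (e x) = 0) : a x = 0 := by
  have hinv : e.symm (e x) = x := e.left_inv hx
  have hT : ∀ v : E, ∃ u : E, mfd e.symm (e x) u = v := by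
    intro v
    have h1 : MDifferentiableAt 𝓘(ℝ, E) 𝓘(ℝ, E) e.symm (e x) := mdiffAt_symm he (e.map_source hx)
    have h2 : MDifferentiableAt 𝓘(ℝ, E) 𝓘(ℝ, E) e (e.symm (e x)) := by
      rw [hinv]; exact mdiffAt_chart he hx
    have h3 := mfderiv_comp (I := 𝓘(ℝ, E)) (I' := 𝓘(ℝ, E)) (I'' := 𝓘(ℝ, E)) x
      h1 (mdiffAt_chart he hx)
    have h4 : (e.symm ∘ e) =ᶠ[𝓝 x] id := by
      filter_upwards [e.open_source.mem_nhds hx] with y hy
      exact e.left_inv hy
    have h5 := h4.mfderiv_eq (I := 𝓘(ℝ, E)) (I' := 𝓘(ℝ, E))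
    have h6 : mfderiv 𝓘(ℝ, E) 𝓘(ℝ, E) (id : M → M) x = ContinuousLinearMap.id ℝ E := mfderiv_id
    refine ⟨(mfderiv 𝓘(ℝ, E) 𝓘(ℝ, E) e x : E →L[ℝ] E) v, ?_⟩
    have h7 : (mfd e.symm (e x)).comp (mfderiv 𝓘(ℝ, E) 𝓘(ℝ, E) e x : E →L[ℝ] E) =
        ContinuousLinearMap.id ℝ E := by
      rw [← h6, ← h5]; exact h3.symm
    have := congrArg (fun L : E →L[ℝ] E => L v) h7
    exact this
  have key : val a x = 0 := by
    ext v
    choose u hu using fun i => hT (v i)
    have h8 := congrArg (fun L : E [⋀^Fin k]→L[ℝ] F => L u) h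
    have h9 : pull e.symm a (e x) u = val a (e.symm (e x)) (fun i => mfd e.symm (e x) (u i)) := rfl
    simp only [hu] at h9
    have h10 : val a (e.symm (e x)) v = 0 := by rw [← h9]; exact h8
    rw [hinv] at h10
    exact h10
  exact key

variable [IsManifold 𝓘(ℝ, E) ∞ M]

theorem IsExt.suppIn {K : Set M} (hK : IsClosed K) {η : Form E F k M} {a : Form E F (k + 1) M}
    (h : IsExt η a) (hs : SuppIn K η) : SuppIn K a := by
  intro x hx
  have he := chart_mem_atlas E x
  refine eq_zero_of_pull he (mem_chart_source E x) ?_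
  rw [← h _ he _ (mem_chart_target E x)]
  have hinv : (chartAt E x).symm (chartAt E x x) = x := (chartAt E x).left_inv (mem_chart_source E x)
  have h1 := hs.pull_eventually hK (mem_chart_target E x) (by rwa [hinv])
  rw [h1.extDeriv_eq]
  exact extDeriv_zero' _

omit [IsManifold 𝓘(ℝ, E) ∞ M] [TopologicalSpace M] [ChartedSpace E M] in
theorem continuousOn_extDeriv {U : Set E} (hU : IsOpen U) {g : E → E [⋀^Fin k]→L[ℝ] F}
    (hg : ContDiffOn ℝ 1 g U) : ContinuousOn (extDeriv g) U := by
  have h1 : ContinuousOn (fderiv ℝ g) U := hg.continuousOn_fderiv_of_isOpen hU le_rfl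
  exact (ContinuousAlternatingMap.alternatizeUncurryFinCLM ℝ E F).continuous.comp_continuousOn h1

theorem IsExt.contForm {η : Form E F k M} {a : Form E F (k + 1) M} (h : IsExt η a)
    (hη : CForm 1 η) : ContForm a := by
  intro e he
  exact (continuousOn_extDeriv e.open_target (hη e he)).congr fun z hz => (h e he z hz).symm

theorem pull_dwedge {r : M → ℝ} (hr : ContMDiff 𝓘(ℝ, E) 𝓘(ℝ) ∞ r) (η : Form E F k M)
    {e : OpenPartialHomeomorph M E} (he : e ∈ atlas E M) {z : E} (hz : z ∈ e.target) :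
    pull e.symm (dwedge r η) z =
      wedge1 (fderiv ℝ (fun y => r (e.symm y)) z) (pull e.symm η z) := by
  have h1 : MDifferentiableAt 𝓘(ℝ, E) 𝓘(ℝ, E) e.symm z := mdiffAt_symm he hz
  have h2 : MDifferentiableAt 𝓘(ℝ, E) 𝓘(ℝ) r (e.symm z) :=
    (hr _).mdifferentiableAt (by simp)
  have h3 := mfderiv_comp (I := 𝓘(ℝ, E)) (I' := 𝓘(ℝ, E)) (I'' := 𝓘(ℝ)) z h2 h1
  rw [mfderiv_eq_fderiv] at h3
  have h4 : fderiv ℝ (fun y => r (e.symm y)) z = (mfdR r (e.symm z)).comp (mfd e.symm z) := h3
  rw [h4, pull_eq, pull_eq, ← wedge1_comp]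
  rfl

/-- Product rule. -/
theorem IsExt.fsmul {η : Form E F k M} {a : Form E F (k + 1) M} (h : IsExt η a)
    (hη : CForm 1 η) {r : M → ℝ} (hr : ContMDiff 𝓘(ℝ, E) 𝓘(ℝ) ∞ r) :
    IsExt (fsmul r η) (fsmul r a + dwedge r η) := by
  intro e he z hz
  have h1 : ContDiffAt ℝ ∞ (fun y => r (e.symm y)) z := Pou.contDiffAt_comp_symm hr he hz
  have h2 : DifferentiableAt ℝ (pull e.symm η) z :=
    ((hη e he).contDiffAt (e.open_target.mem_nhds hz)).differentiableAt one_ne_zero
  have h3 := extDeriv_smul_fun (h1.differentiableAt (by simp)) h2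
  rw [pull_add, pull_fsmul, pull_dwedge hr η he hz, ← h e he z hz, ← h3]
  rfl

theorem CForm.fsmul {η : Form E F k M} (hη : CForm 1 η) {r : M → ℝ}
    (hr : ContMDiff 𝓘(ℝ, E) 𝓘(ℝ) ∞ r) : CForm 1 (fsmul r η) := by
  intro e he z hz
  have h1 : ContDiffAt ℝ ∞ (fun y => r (e.symm y)) z := Pou.contDiffAt_comp_symm hr he hz
  have h2 : ContDiffAt ℝ 1 (pull e.symm η) z := (hη e he).contDiffAt (e.open_target.mem_nhds hz)
  exact ((h1.of_le (by simp)).smul h2).contDiffWithinAt

end Ext

section Stokes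

variable [FiniteDimensional ℝ E] [MeasurableSpace E] [BorelSpace E] {n : ℕ}
  (μ : Measure E) [μ.IsAddHaarMeasure]

/-- Stokes' formula for a form with support in one chart. -/
theorem stokes_chart (b : Basis (Fin (n + 1)) ℝ E) [T2Space M] {η : Form E F n M}
    (hη : CForm 1 η) {K : Set M} (hK : IsCompact K) (hs : SuppIn K η)
    {e : OpenPartialHomeomorph M E} (he : e ∈ atlas E M) (hKe : K ⊆ e.source) :
    ∫ z in e.target, extDeriv (pull e.symm η) z b ∂μ = 0 := by
  classical
  let L : Set E := e '' K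
  have hL : IsCompact L := hK.image_of_continuousOn (e.continuousOn.mono hKe)
  have hLt : L ⊆ e.target := by rintro _ ⟨x, hx, rfl⟩; exact e.map_source (hKe hx)
  let ζ : E → E [⋀^Fin n]→L[ℝ] F := e.target.indicator (pull e.symm η)
  have hz0 : ∀ z ∉ L, ζ z = 0 := by
    intro z hz
    by_cases h : z ∈ e.target
    · have : e.symm z ∉ K := fun hx => hz ⟨_, hx, e.right_inv h⟩
      simp only [ζ, indicator_of_mem h]
      exact pull_of_eq_zero (hs _ this)
    · simp only [ζ, indicator_of_notMem h]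
  have hev : ∀ z ∈ e.target, ζ =ᶠ[𝓝 z] pull e.symm η := by
    intro z hz
    filter_upwards [e.open_target.mem_nhds hz] with y hy
    simp only [ζ, indicator_of_mem hy]
  have hev0 : ∀ z ∉ L, ζ =ᶠ[𝓝 z] 0 := by
    intro z hz
    filter_upwards [hL.isClosed.isOpen_compl.mem_nhds hz] with y hy
    exact hz0 y hy
  have hζ : ContDiff ℝ 1 ζ := by
    rw [contDiff_iff_contDiffAt]
    intro z
    by_cases hz : z ∈ L
    · exact (((hη e he).contDiffAt (e.open_target.mem_nhds (hLt hz)))).congr_of_eventuallyEq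
        (hev z (hLt hz))
    · exact (contDiffAt_const (c := (0 : E [⋀^Fin n]→L[ℝ] F))).congr_of_eventuallyEq (hev0 z hz)
  have hc : HasCompactSupport ζ := HasCompactSupport.intro hL hz0
  have h1 := integral_extDeriv_eq_zero μ hζ hc (b : Fin (n + 1) → E)
  have h2 : ∫ z in e.target, extDeriv (pull e.symm η) z b ∂μ =
      ∫ z in e.target, extDeriv ζ z b ∂μ := by
    refine setIntegral_congr_fun e.open_target.measurableSet fun z hz => ?_
    rw [(hev z hz).extDeriv_eq]
  rw [h2, setIntegral_eq_integral_of_forall_compl_eq_zero, h1]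
  intro z hz
  have hzL : z ∉ L := fun h => hz (hLt h)
  rw [(hev0 z hzL).extDeriv_eq, extDeriv_zero']
  rfl

variable [IsManifold 𝓘(ℝ, E) ∞ M]

theorem ContForm.dcont (b : Basis (Fin n) ℝ E) {a : Form E F n M} (h : ContForm a) :
    DCont M (fun e z => cf b e a z) := by
  intro e he
  exact (ContinuousAlternatingMap.apply ℝ E F (b : Fin n → E)).continuous.comp_continuousOn
    (h e he)

omit [FiniteDimensional ℝ E] [MeasurableSpace E] [BorelSpace E] [IsManifold 𝓘(ℝ, E) ∞ M] in
theorem SuppIn.dsupp (b : Basis (Fin n) ℝ E) {K : Set M} {a : Form E F n M} (h : SuppIn K a) :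
    DSupp K (fun e z => cf b e a z) := by
  intro e he z hz hx
  simp only [cf]
  rw [pull_of_eq_zero (h _ hx)]
  rfl

variable [PosAtlas E M] [MeasurableSpace M] [BorelSpace M] (P : Pou E M)

/-- The integral of a form of top degree. -/
def intForm (b : Basis (Fin n) ℝ E) (a : Form E F n M) : F :=
  P.integ μ (fun e z => cf b e a z)

/-- **Stokes' formula.** -/
theorem stokes [T2Space M] (b : Basis (Fin (n + 1)) ℝ E) {η : Form E F n M}
    {a : Form E F (n + 1) M} (hη : CForm 1 η) (h : IsExt η a) {K : Set M} (hK : IsCompact K)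
    (hs : SuppIn K η) : intForm μ P b a = 0 := by
  classical
  have hKc : IsClosed K := hK.isClosed
  have hsa : SuppIn K a := h.suppIn hKc hs
  have hfin : {i | (tsupport (P.ρ i) ∩ K).Nonempty}.Finite :=
    P.locFin.closure.finite_nonempty_inter_compact hK
  set S : Finset P.ι := hfin.toFinset with hS
  have hone : ∀ x ∈ K, ∀ᶠ y in 𝓝 x, ∑ i ∈ S, P.ρ i y = 1 := by
    intro x hx
    obtain ⟨T, hT⟩ := P.exists_finset x
    have h1 : ∀ i ∈ T \ S, ∀ᶠ y in 𝓝 x, P.ρ i y = 0 := by
      intro i hi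
      have h2 : x ∉ tsupport (P.ρ i) := by
        intro h3
        exact (Finset.mem_sdiff.mp hi).2 (hfin.mem_toFinset.mpr ⟨x, h3, hx⟩)
      filter_upwards [(isClosed_tsupport _).isOpen_compl.mem_nhds h2] with y hy
      exact image_eq_zero_of_notMem_tsupport hy
    have h2 : ∀ᶠ y in 𝓝 x, ∀ i ∈ T \ S, P.ρ i y = 0 := (Finset.eventually_all _).mpr h1
    filter_upwards [hT, h2] with y hy hy2
    rw [← P.sum_one y, finsum_eq_sum_of_support_subset]
    intro i hi
    by_contra hiS
    by_cases hiT : i ∈ T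
    · exact hi (hy2 i (Finset.mem_sdiff.mpr ⟨hiT, hiS⟩))
    · exact hi (hy i hiT)
  let ai : P.ι → Form E F (n + 1) M := fun i => fsmul (P.ρ i) a + dwedge (P.ρ i) η
  have hai : ∀ i, IsExt (fsmul (P.ρ i) η) (ai i) := fun i => h.fsmul hη (P.smooth i)
  have hci : ∀ i, CForm 1 (fsmul (P.ρ i) η) := fun i => hη.fsmul (P.smooth i)
  have hsi : ∀ i, SuppIn (tsupport (P.ρ i) ∩ K) (fsmul (P.ρ i) η) := by
    intro i x hx
    by_cases h1 : x ∈ K
    · have h2 : x ∉ tsupport (P.ρ i) := fun h2 => hx ⟨h2, h1⟩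
      have h3 : P.ρ i x = 0 := image_eq_zero_of_notMem_tsupport h2
      simp [h3]
    · rw [fsmul_apply, hs x h1]
      exact smul_zero _
  have hKi : ∀ i, IsCompact (tsupport (P.ρ i) ∩ K) := fun i => hK.inter_left (isClosed_tsupport _)
  have hval : ∀ i x, val (ai i) x = P.ρ i x • val a x + wedge1 (mfdR (P.ρ i) x) (val η x) :=
    fun i x => rfl
  have hsum : a = ∑ i ∈ S, ai i := by
    refine form_ext fun x => ?_
    rw [val_sum]
    simp only [hval]
    by_cases hx : x ∈ K
    · have h1 : ∑ i ∈ S, P.ρ i x = 1 := (hone x hx).self_of_nhds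
      have h2 : ∑ i ∈ S, (mfdR (P.ρ i) x : E →L[ℝ] ℝ) = 0 := by
        have hd : ∀ i, MDifferentiableAt 𝓘(ℝ, E) 𝓘(ℝ) (P.ρ i) x := fun i =>
          (P.smooth i x).mdifferentiableAt (by simp)
        have h3 : ∀ T : Finset P.ι, ∃ L : E →L[ℝ] ℝ,
            HasMFDerivAt 𝓘(ℝ, E) 𝓘(ℝ) (fun y => ∑ i ∈ T, P.ρ i y) x L ∧
            L = ∑ i ∈ T, mfdR (P.ρ i) x := by
          intro T
          induction T using Finset.induction_on with
          | empty =>
            have h6 : (fun y : M => ∑ i ∈ (∅ : Finset P.ι), P.ρ i y) = fun _ => (0 : ℝ) := by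
              funext y; simp
            refine ⟨0, ?_, by simp⟩
            rw [h6]
            exact hasMFDerivAt_const (0 : ℝ) x
          | insert i T hi ih =>
            obtain ⟨L, hL, hL'⟩ := ih
            have h4 := (hd i).hasMFDerivAt.add hL
            refine ⟨mfdR (P.ρ i) x + L, ?_, by rw [Finset.sum_insert hi, hL']⟩
            refine HasMFDerivAt.congr_of_eventuallyEq (f := P.ρ i + fun y => ∑ i ∈ T, P.ρ i y)
              h4 ?_
            exact Filter.Eventually.of_forall fun y => by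
              simp only [Finset.sum_insert hi]; rfl
        have h5 : HasMFDerivAt 𝓘(ℝ, E) 𝓘(ℝ) (fun y => ∑ i ∈ S, P.ρ i y) x (0 : E →L[ℝ] ℝ) :=
          (hasMFDerivAt_const (1 : ℝ) x).congr_of_eventuallyEq (hone x hx)
        obtain ⟨L, hL, hL'⟩ := h3 S
        rw [← hL']
        exact hasMFDerivAt_unique hL h5
      rw [Finset.sum_add_distrib, ← Finset.sum_smul, h1, one_smul, ← wedge1_sum_left, h2,
          wedge1_zero_left, add_zero]
    · have h2 : val a x = 0 := hsa x hx
      have h3 : val η x = 0 := hs x hx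
      simp only [h2, h3, wedge1_zero_right, smul_zero, add_zero, Finset.sum_const_zero]
  have hcf : (fun (e : OpenPartialHomeomorph M E) (z : E) => cf b e a z) =
      ∑ i ∈ S, fun (e : OpenPartialHomeomorph M E) (z : E) => cf b e (ai i) z := by
    funext e z
    simp only [Finset.sum_apply]
    conv_lhs => rw [hsum]
    simp only [cf, pull_sum]
    exact ContinuousAlternatingMap.sum_apply _ _
  have hint : ∀ i, Integrable (P.quo fun (e : OpenPartialHomeomorph M E) (z : E) =>
      cf b e (ai i) z) (P.meas μ) := fun i =>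
    P.integrable_quo μ (isDens_cf b _) (((hai i).contForm (hci i)).dcont b) (hKi i)
      (((hai i).suppIn (hKi i).isClosed (hsi i)).dsupp b)
  rw [intForm, hcf, P.integ_sum μ S fun i _ => hint i]
  refine Finset.sum_eq_zero fun i _ => ?_
  have hsub : DSupp (P.e i).source fun (e : OpenPartialHomeomorph M E) (z : E) =>
      cf b e (ai i) z := by
    have h1 : SuppIn (tsupport (P.ρ i) ∩ K) (ai i) := (hai i).suppIn (hKi i).isClosed (hsi i)
    intro e he z hz hx
    exact h1.dsupp b e he z hz fun h2 => hx (P.sub i h2.1)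
  rw [P.integ_chart μ (P.mem i) (isDens_cf b _) (hint i).aestronglyMeasurable hsub]
  have h1 := stokes_chart μ b (hci i) (hKi i) (hsi i) (P.mem i) fun x hx => P.sub i hx.1
  rw [← h1]
  refine setIntegral_congr_fun (P.e i).open_target.measurableSet fun z hz => ?_
  simp only [cf]
  rw [hai i (P.e i) (P.mem i) z hz]

end Stokes

end Vale.Agent.P267.H928.Int
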